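import Mathlib

/-!
# P137: the setting (definitions used by the statement)

The centered Hardy-Littlewood maximal function on Euclidean `d`-space.
-/

open MeasureTheory

namespace Vale.Agent.H70.P137

/-- Euclidean `d`-space (Euclidean norm, Lebesgue measure). -/
abbrev E (d : ℕ) : Type := EuclideanSpace ℝ (Fin d)

/-- The average of `|f|` over the open Euclidean ball `B(x, r)`. -/
noncomputable def ballAvg {d : ℕ} (f : E d → ℝ) (x : E d) (r : ℝ) : ℝ :=
  (volume (Metric.ball x r)).toReal⁻¹ * ∫ y in Metric.ball x r, |f y|

/-- The centered Hardy-Littlewood maximal function: the supremum over `r > 0` of the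
averages of `|f|` over the balls `B(x, r)`. -/
noncomputable def cM {d : ℕ} (f : E d → ℝ) (x : E d) : ℝ :=
  ⨆ r : {r : ℝ // 0 < r}, ballAvg f x r

end Vale.Agent.H70.P137
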