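import Mathlib
import Vale.Agent.H70.P137.Setting

/-!
# P137: internal definitions

`RadAnti u`: `u` is radial and radially nonincreasing.  `Iw u`: the weighted integral
`∫ u(x)/|x| dx` as an extended nonnegative real.  `cA f R`: the average of `f` over the ball
`B(0, R)`, written on the unit ball.
-/

open MeasureTheory
open scoped ENNReal

namespace Vale.Agent.H70.P137

/-- `u` is radial and radially nonincreasing. -/
def RadAnti {d : ℕ} (u : E d → ℝ) : Prop := ∀ x y : E d, ‖x‖ ≤ ‖y‖ → u y ≤ u x

/-- The weighted integral `∫ u(x)/|x| dx`. -/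
noncomputable def Iw {d : ℕ} (u : E d → ℝ) : ℝ≥0∞ := ∫⁻ x : E d, ENNReal.ofReal (u x / ‖x‖)

/-- The average of `f` over `B(0, R)`, written as an integral over the unit ball. -/
noncomputable def cA {d : ℕ} (f : E d → ℝ) (R : ℝ) : ℝ :=
  (volume (Metric.ball (0 : E d) 1)).toReal⁻¹ * ∫ z in Metric.ball (0 : E d) 1, f (R • z)

end Vale.Agent.H70.P137
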