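import Mathlib
import Vale.Agent.H70.P137.Defs

/-!
# P137, row R11: the averages `cA f R` over centred balls

`cA_eq`: `cA f R` is the average of `f` over `B(0, R)` (substitution `y = R z`:
`integral_comp_smul` applied to the indicator of `B(0,R)` times `f`, and
`|B(0,R)| = R^d |B(0,1)|`, `Measure.addHaar_ball` / `EuclideanSpace.volume_ball`).
`cA_anti`: `f (R' z) ≤ f (R z)` for `0 ≤ R ≤ R'` because `|R z| ≤ |R' z|`; both integrands are
continuous, hence integrable on the unit ball.
Helper lemmas in this file: names starting with `ca_`.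
-/

open MeasureTheory Metric Set

namespace Vale.Agent.H70.P137

theorem ca_integrableOn {d : ℕ} (f : E d → ℝ) (hfc : Continuous f) (R : ℝ) :
    IntegrableOn (fun z : E d => f (R • z)) (ball (0 : E d) 1) := by
  have hc : Continuous (fun z : E d => f (R • z)) := hfc.comp (continuous_const_smul R)
  exact (hc.continuousOn.integrableOn_compact (isCompact_closedBall (0 : E d) 1)).mono_set
    ball_subset_closedBall

/-- ROW R11a: `cA f R` is the average of `f` over `B(0, R)`. -/
theorem cA_eq {d : ℕ} (f : E d → ℝ) (R : ℝ) (hR : 0 < R) :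
    cA f R = (volume (ball (0 : E d) R)).toReal⁻¹ * ∫ y in ball (0 : E d) R, f y := by
  unfold cA
  have h1 : ∫ z in ball (0 : E d) 1, f (R • z) = (R ^ d)⁻¹ * ∫ y in ball (0 : E d) R, f y := by
    have e1 : ∫ z in ball (0 : E d) 1, f (R • z)
        = ∫ z, (ball (0 : E d) R).indicator f (R • z) := by
      rw [← integral_indicator measurableSet_ball]
      congr 1
      funext z
      have hz : z ∈ ball (0 : E d) 1 ↔ R • z ∈ ball (0 : E d) R := by
        simp only [mem_ball_zero_iff, norm_smul, Real.norm_eq_abs, abs_of_pos hR]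
        constructor
        · intro h
          nlinarith
        · intro h
          by_contra hc
          push Not at hc
          nlinarith
      by_cases h : z ∈ ball (0 : E d) 1
      · rw [indicator_of_mem h, indicator_of_mem (hz.mp h)]
      · rw [indicator_of_notMem h, indicator_of_notMem (fun h' => h (hz.mpr h'))]
    rw [e1, Measure.integral_comp_smul volume ((ball (0 : E d) R).indicator f) R,
      integral_indicator measurableSet_ball]
    have hpos : (0 : ℝ) < R ^ d := pow_pos hR d
    simp [abs_of_pos (inv_pos.mpr hpos)]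
  have h2 : (volume (ball (0 : E d) R)).toReal = R ^ d * (volume (ball (0 : E d) 1)).toReal := by
    rw [Measure.addHaar_ball_of_pos volume (0 : E d) hR, ENNReal.toReal_mul,
      ENNReal.toReal_ofReal (by positivity)]
    simp
  rw [h1, h2, mul_inv]
  ring

/-- ROW R11b. -/
theorem cA_nonneg {d : ℕ} (f : E d → ℝ) (hf0 : ∀ x, 0 ≤ f x) (R : ℝ) : 0 ≤ cA f R := by
  unfold cA
  exact mul_nonneg (inv_nonneg.mpr ENNReal.toReal_nonneg) (integral_nonneg fun z => hf0 _)

/-- ROW R11c. -/
theorem cA_anti {d : ℕ} (f : E d → ℝ) (hf : RadAnti f) (hfc : Continuous f) (R R' : ℝ)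
    (hR : 0 ≤ R) (hRR : R ≤ R') : cA f R' ≤ cA f R := by
  unfold cA
  refine mul_le_mul_of_nonneg_left ?_ (inv_nonneg.mpr ENNReal.toReal_nonneg)
  refine setIntegral_mono_on (ca_integrableOn f hfc R') (ca_integrableOn f hfc R)
    measurableSet_ball (fun z _ => ?_)
  apply hf
  rw [norm_smul, norm_smul, Real.norm_eq_abs, Real.norm_eq_abs, abs_of_nonneg hR,
    abs_of_nonneg (hR.trans hRR)]
  exact mul_le_mul_of_nonneg_right hRR (norm_nonneg z)

end Vale.Agent.H70.P137
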