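import Mathlib
import Vale.Agent.H70.P137.Defs

/-!
# P137, row R5: dilations

`lintegral_comp_smul_E`: `∫ φ(c x) dx = c^(-d) ∫ φ(x) dx` for `c > 0` (the map `x ↦ c x` is a
measurable equivalence and `Measure.map_addHaar_smul`; no measurability of `φ` is needed:
`MeasurableEquiv.lintegral_map_equiv` or `Homeomorph.smulOfNeZero ... toMeasurableEquiv`).
`Iw_comp_smul`: `∫ u(c x)/|x| dx = c^(1-d) ∫ u(x)/|x| dx` (apply the first to
`φ x = ofReal (u x / |x|)` and use `|c x| = c |x|`, so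
`ofReal (u (c x) / |x|) = ofReal c * φ (c x)`).
Helper lemmas in this file: names starting with `dil_`.
-/

open MeasureTheory Metric Set
open scoped ENNReal

namespace Vale.Agent.H70.P137

/-- ROW R5a. -/
theorem lintegral_comp_smul_E {d : ℕ} (φ : E d → ℝ≥0∞) (c : ℝ) (hc : 0 < c) :
    ∫⁻ x : E d, φ (c • x) = ENNReal.ofReal ((c ^ d)⁻¹) * ∫⁻ x : E d, φ x := by
  have hc0 : c ≠ 0 := hc.ne'
  have h1 : ∫⁻ x : E d, φ (c • x)
      = ∫⁻ x, φ x ∂(Measure.map (fun x : E d => c • x) (volume : Measure (E d))) := by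
    have := MeasureTheory.lintegral_map_equiv φ
      ((Homeomorph.smulOfNeZero c hc0).toMeasurableEquiv : E d ≃ᵐ E d)
      (μ := (volume : Measure (E d)))
    simpa using this.symm
  rw [h1, Measure.map_addHaar_smul (volume : Measure (E d)) hc0, lintegral_smul_measure]
  have h2 : Module.finrank ℝ (E d) = d := by simp
  rw [h2, abs_of_pos (inv_pos.mpr (pow_pos hc d))]
  rfl

/-- ROW R5b. -/
theorem Iw_comp_smul {d : ℕ} (hd : 1 ≤ d) (u : E d → ℝ) (c : ℝ) (hc : 0 < c) :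
    Iw (fun x => u (c • x)) = ENNReal.ofReal ((c ^ (d - 1))⁻¹) * Iw u := by
  unfold Iw
  have hpt : ∀ x : E d, ENNReal.ofReal (u (c • x) / ‖x‖)
      = ENNReal.ofReal c * (fun y : E d => ENNReal.ofReal (u y / ‖y‖)) (c • x) := by
    intro x
    simp only
    rw [← ENNReal.ofReal_mul hc.le, norm_smul, Real.norm_of_nonneg hc.le]
    congr 1
    field_simp
  simp_rw [hpt]
  rw [lintegral_const_mul' _ _ ENNReal.ofReal_ne_top,
    lintegral_comp_smul_E (fun y : E d => ENNReal.ofReal (u y / ‖y‖)) c hc, ← mul_assoc,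
    ← ENNReal.ofReal_mul hc.le]
  congr 2
  obtain ⟨k, rfl⟩ : ∃ k, d = k + 1 := ⟨d - 1, by omega⟩
  have hck : c ^ k ≠ 0 := pow_ne_zero k hc.ne'
  simp only [Nat.add_sub_cancel, pow_succ]
  field_simp

end Vale.Agent.H70.P137
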