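import Mathlib
import Vale.Agent.H70.P137.Defs

/-!
# P137, row R7: the gradient of a radial, radially nonincreasing function

At `x ≠ 0`: the norm of the derivative of `u` at `x` is at most the lower limit of the
difference quotients `n (u x - u ((1 + 1/n) x)) / |x|` along the ray through `x`.

Proof. If `u` is not differentiable at `x`, `fderiv` is `0`. Otherwise let `L = fderiv ℝ u x`.
For `w ⊥ x` let `R` be the linear reflection in the orthogonal complement of `w`; it is a linear
isometry with `R x = x`, `R w = -w`, and `u ∘ R = u` (`u` is radial), so `L = L ∘ R` and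
`L w = - L w = 0`. Hence `|L v| ≤ |L x| |v| / |x|` for all `v`, so `‖L‖ ≤ |L x| / |x|`; and
`L x = lim n (u ((1 + 1/n) x) - u x)` (derivative along the ray), which is `≤ 0`.
Helper lemmas in this file: names starting with `grad_`.
-/

open MeasureTheory Metric Set Filter
open scoped ENNReal

namespace Vale.Agent.H70.P137

theorem grad_radial {d : ℕ} (u : E d → ℝ) (hu : RadAnti u) (a b : E d) (h : ‖a‖ = ‖b‖) :
    u a = u b :=
  le_antisymm (hu b a h.ge) (hu a b h.le)

theorem grad_perp {d : ℕ} (u : E d → ℝ) (hu : RadAnti u) (x : E d) (L : E d →L[ℝ] ℝ)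
    (hL : HasFDerivAt u L x) (w : E d) (hw : inner ℝ w x = 0) : L w = 0 := by
  set R : E d ≃ₗᵢ[ℝ] E d := (Submodule.span ℝ {w})ᗮ.reflection with hR
  have hRx : R x = x :=
    Submodule.reflection_mem_subspace_eq_self
      (Submodule.mem_orthogonal_singleton_iff_inner_right.mpr hw)
  have hRw : R w = -w := Submodule.reflection_orthogonalComplement_singleton_eq_neg w
  have hcomp : (u ∘ R) = u := by
    funext v
    exact grad_radial u hu _ _ (R.norm_map v)
  have hL' : HasFDerivAt u L (R x) := by rw [hRx]; exact hL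
  have h1 : HasFDerivAt (u ∘ R) (L.comp (R : E d →L[ℝ] E d)) x :=
    hL'.comp x (R : E d →L[ℝ] E d).hasFDerivAt
  rw [hcomp] at h1
  have h2 : L = L.comp (R : E d →L[ℝ] E d) := hL.unique h1
  have h3 : L w = L (R w) := by
    conv_lhs => rw [h2]
    rfl
  rw [hRw, map_neg] at h3
  linarith

theorem grad_opNorm {d : ℕ} (u : E d → ℝ) (hu : RadAnti u) (x : E d) (hx : x ≠ 0)
    (L : E d →L[ℝ] ℝ) (hL : HasFDerivAt u L x) : ‖L‖ ≤ |L x| / ‖x‖ := by
  have hxn : 0 < ‖x‖ := norm_pos_iff.mpr hx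
  refine ContinuousLinearMap.opNorm_le_bound L (by positivity) (fun v => ?_)
  set a : ℝ := inner ℝ x v / ‖x‖ ^ 2 with ha
  set w : E d := v - a • x with hw
  have hwx : inner ℝ w x = 0 := by
    rw [hw, inner_sub_left, inner_smul_left, real_inner_self_eq_norm_sq, ha, real_inner_comm]
    simp only [conj_trivial]
    field_simp
    ring
  have hLw : L w = 0 := grad_perp u hu x L hL w hwx
  have hv : v = a • x + w := by rw [hw]; abel
  have hLv : L v = a * L x := by
    conv_lhs => rw [hv]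
    rw [map_add, map_smul, hLw, add_zero, smul_eq_mul]
  have habs : |a| ≤ ‖v‖ / ‖x‖ := by
    rw [ha, abs_div, abs_of_nonneg (by positivity : (0 : ℝ) ≤ ‖x‖ ^ 2)]
    rw [div_le_div_iff₀ (by positivity) hxn]
    have := abs_real_inner_le_norm x v
    nlinarith [norm_nonneg v, norm_nonneg x]
  rw [Real.norm_eq_abs, hLv, abs_mul]
  calc |a| * |L x| ≤ ‖v‖ / ‖x‖ * |L x| := mul_le_mul_of_nonneg_right habs (abs_nonneg _)
    _ = |L x| / ‖x‖ * ‖v‖ := by ring

theorem grad_lim {d : ℕ} (u : E d → ℝ) (x : E d) (L : E d →L[ℝ] ℝ) (hL : HasFDerivAt u L x) :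
    Tendsto (fun n : ℕ => (n : ℝ) * (u ((1 + 1 / (n : ℝ)) • x) - u x)) atTop (nhds (L x)) := by
  have hc : Tendsto (fun n : ℕ => ‖(n : ℝ)‖) atTop atTop := by
    simp only [Real.norm_natCast]
    exact tendsto_natCast_atTop_atTop
  have h := hL.lim x hc
  refine h.congr (fun n => ?_)
  rw [smul_eq_mul, add_smul, one_smul, one_div]

/-- ROW R7. -/
theorem enorm_fderiv_le_liminf {d : ℕ} (u : E d → ℝ) (hu : RadAnti u) (x : E d) (hx : x ≠ 0) :
    ‖fderiv ℝ u x‖ₑ ≤ liminf
      (fun n : ℕ => ENNReal.ofReal ((n : ℝ) * (u x - u ((1 + 1 / (n : ℝ)) • x)) / ‖x‖)) atTop := by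
  by_cases hdiff : DifferentiableAt ℝ u x
  · have hL : HasFDerivAt u (fderiv ℝ u x) x := hdiff.hasFDerivAt
    set L := fderiv ℝ u x with hLdef
    have hxn : 0 < ‖x‖ := norm_pos_iff.mpr hx
    have hlim := grad_lim u x L hL
    have hle : ∀ n : ℕ, (n : ℝ) * (u ((1 + 1 / (n : ℝ)) • x) - u x) ≤ 0 := by
      intro n
      have h1 : ‖x‖ ≤ ‖(1 + 1 / (n : ℝ)) • x‖ := by
        rw [norm_smul, Real.norm_eq_abs]
        have h0 : (0 : ℝ) ≤ 1 / (n : ℝ) := by positivity
        rw [abs_of_nonneg (by linarith)]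
        nlinarith [norm_nonneg x]
      have h2 := hu x _ h1
      have hn : (0 : ℝ) ≤ (n : ℝ) := Nat.cast_nonneg n
      nlinarith
    have hLx : L x ≤ 0 := le_of_tendsto' hlim hle
    have hlim2 : Tendsto
        (fun n : ℕ => ENNReal.ofReal ((n : ℝ) * (u x - u ((1 + 1 / (n : ℝ)) • x)) / ‖x‖)) atTop
        (nhds (ENNReal.ofReal (-(L x) / ‖x‖))) := by
      refine (ENNReal.continuous_ofReal.tendsto _).comp ?_
      have h3 := (hlim.neg).div_const ‖x‖
      refine h3.congr (fun n => ?_)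
      ring
    rw [hlim2.liminf_eq, ← ofReal_norm]
    refine ENNReal.ofReal_le_ofReal ?_
    have h4 := grad_opNorm u hu x hx L hL
    rw [abs_of_nonpos hLx] at h4
    exact h4
  · rw [fderiv_zero_of_not_differentiableAt hdiff]
    rw [← ofReal_norm, norm_zero, ENNReal.ofReal_zero]
    exact zero_le

end Vale.Agent.H70.P137
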