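import Mathlib
import Vale.Agent.H70.P137.Defs
import Vale.Agent.H70.P137.Dil
import Vale.Agent.H70.P137.Grad

/-!
# P137, row R8: `∫ |∇u| ≤ (d-1) ∫ u/|x|` for radial, radially nonincreasing, continuous `u ≥ 0`

If `Iw u = ∞` there is nothing to prove (the constant `d - 1` is positive because `d ≥ 2`).
Otherwise, by `enorm_fderiv_le_liminf` (a.e. `x`) and
Fatou's lemma, `∫ |∇u|` is at most the lower limit of
`∫ ofReal (n (u x - u ((1 + 1/n) x)) / |x|) dx = n (Iw u - (1 + 1/n)^(1-d) Iw u)`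
(`lintegral_sub`, `Iw_comp_smul`), and `n (1 - (1 + 1/n)^(1-d)) ≤ d - 1` (Bernoulli).
Helper lemmas in this file: names starting with `fatou_`.
-/

open MeasureTheory Metric Set Filter
open scoped ENNReal

namespace Vale.Agent.H70.P137

/-- Bernoulli: `n (1 - (1 + 1/n)^(1-d)) ≤ d - 1`. -/
theorem fatou_bernoulli {d : ℕ} (hd : 2 ≤ d) (n : ℕ) :
    (n : ℝ) * (1 - ((1 + 1 / (n : ℝ)) ^ (d - 1))⁻¹) ≤ (d : ℝ) - 1 := by
  have hdR : (2 : ℝ) ≤ d := by exact_mod_cast hd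
  rcases Nat.eq_zero_or_pos n with h0 | hpos
  · subst h0
    rw [Nat.cast_zero, zero_mul]
    linarith
  · have hn : (0 : ℝ) < n := by exact_mod_cast hpos
    have hn1 : (0 : ℝ) < (n : ℝ) + 1 := by linarith
    have hc : (1 + 1 / (n : ℝ))⁻¹ = 1 + (-1 / ((n : ℝ) + 1)) := by
      field_simp
      ring
    rw [← inv_pow, hc]
    have hB := one_add_mul_le_pow (a := -1 / ((n : ℝ) + 1)) (by
      rw [le_div_iff₀ hn1]
      linarith) (d - 1)
    have hcast : ((d - 1 : ℕ) : ℝ) = (d : ℝ) - 1 := by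
      rw [Nat.cast_sub (by omega)]
      simp
    rw [hcast] at hB
    have hd1 : (0 : ℝ) ≤ (d : ℝ) - 1 := by linarith
    have h1 : 1 - (1 + -1 / ((n : ℝ) + 1)) ^ (d - 1) ≤ ((d : ℝ) - 1) / ((n : ℝ) + 1) := by
      have e : ((d : ℝ) - 1) * (-1 / ((n : ℝ) + 1)) = -(((d : ℝ) - 1) / ((n : ℝ) + 1)) := by
        ring
      linarith
    calc (n : ℝ) * (1 - (1 + -1 / ((n : ℝ) + 1)) ^ (d - 1))
        ≤ (n : ℝ) * (((d : ℝ) - 1) / ((n : ℝ) + 1)) := mul_le_mul_of_nonneg_left h1 hn.le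
      _ = ((d : ℝ) - 1) * ((n : ℝ) / ((n : ℝ) + 1)) := by ring
      _ ≤ ((d : ℝ) - 1) * 1 := by
          apply mul_le_mul_of_nonneg_left _ hd1
          rw [div_le_one hn1]
          linarith
      _ = (d : ℝ) - 1 := mul_one _

/-- ROW R8. -/
theorem lintegral_enorm_fderiv_le {d : ℕ} (hd : 2 ≤ d) (u : E d → ℝ) (hu : RadAnti u)
    (hu0 : ∀ x, 0 ≤ u x) (huc : Continuous u) :
    ∫⁻ x : E d, ‖fderiv ℝ u x‖ₑ ≤ ENNReal.ofReal ((d : ℝ) - 1) * Iw u := by
  have hd1 : 1 ≤ d := by omega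
  have hdR : (2 : ℝ) ≤ d := by exact_mod_cast hd
  by_cases hI : Iw u = ⊤
  · have hpos : ENNReal.ofReal ((d : ℝ) - 1) ≠ 0 := by
      rw [ne_eq, ENNReal.ofReal_eq_zero, not_le]
      linarith
    rw [hI, ENNReal.mul_top hpos]
    exact le_top
  have : Nontrivial (E d) := by
    apply Module.nontrivial_of_finrank_pos (R := ℝ)
    rw [finrank_euclideanSpace_fin]
    omega
  have hae : ∀ᵐ x : E d, ‖fderiv ℝ u x‖ₑ ≤ liminf (fun n : ℕ =>
      ENNReal.ofReal ((n : ℝ) * (u x - u ((1 + 1 / (n : ℝ)) • x)) / ‖x‖)) atTop := by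
    have h0 : ∀ᵐ x : E d, x ≠ 0 := by
      rw [ae_iff]
      simp
    filter_upwards [h0] with x hx
    exact enorm_fderiv_le_liminf u hu x hx
  have hmeas : ∀ n : ℕ, Measurable (fun x : E d =>
      ENNReal.ofReal ((n : ℝ) * (u x - u ((1 + 1 / (n : ℝ)) • x)) / ‖x‖)) := by
    intro n
    have h1 : Measurable (fun x : E d => u ((1 + 1 / (n : ℝ)) • x)) :=
      huc.measurable.comp (measurable_const_smul _)
    exact ENNReal.measurable_ofReal.comp
      ((measurable_const.mul (huc.measurable.sub h1)).div measurable_norm)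
  have hint : ∀ n : ℕ, ∫⁻ x : E d,
      ENNReal.ofReal ((n : ℝ) * (u x - u ((1 + 1 / (n : ℝ)) • x)) / ‖x‖) ≤
      ENNReal.ofReal ((d : ℝ) - 1) * Iw u := by
    intro n
    have hbern := fatou_bernoulli hd n
    obtain ⟨c, hc⟩ : ∃ c : ℝ, c = 1 + 1 / (n : ℝ) := ⟨_, rfl⟩
    rw [← hc] at hbern ⊢
    have hc1 : 1 ≤ c := by
      rw [hc]
      have h2 : (0 : ℝ) ≤ 1 / (n : ℝ) := by positivity
      linarith
    have hc0 : 0 < c := by linarith
    have hsplit : ∀ x : E d, ENNReal.ofReal ((n : ℝ) * (u x - u (c • x)) / ‖x‖) =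
        ENNReal.ofReal (n : ℝ) *
          (ENNReal.ofReal (u x / ‖x‖) - ENNReal.ofReal (u (c • x) / ‖x‖)) := by
      intro x
      rw [← ENNReal.ofReal_sub _ (div_nonneg (hu0 _) (norm_nonneg _)),
        ← ENNReal.ofReal_mul (Nat.cast_nonneg n)]
      congr 1
      ring
    simp only [hsplit]
    rw [lintegral_const_mul' _ _ ENNReal.ofReal_ne_top]
    have hgm : Measurable (fun x : E d => ENNReal.ofReal (u (c • x) / ‖x‖)) :=
      ENNReal.measurable_ofReal.comp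
        ((huc.measurable.comp (measurable_const_smul _)).div measurable_norm)
    have hIc : Iw (fun x => u (c • x)) = ENNReal.ofReal ((c ^ (d - 1))⁻¹) * Iw u :=
      Iw_comp_smul hd1 u c hc0
    have e1 : ∫⁻ x : E d, ENNReal.ofReal (u x / ‖x‖) = Iw u := rfl
    have e2 : ∫⁻ x : E d, ENNReal.ofReal (u (c • x) / ‖x‖) = Iw (fun x => u (c • x)) := rfl
    have hgfin : ∫⁻ x : E d, ENNReal.ofReal (u (c • x) / ‖x‖) ≠ ⊤ := by
      rw [e2, hIc]
      exact ENNReal.mul_ne_top ENNReal.ofReal_ne_top hI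
    have hle : (fun x : E d => ENNReal.ofReal (u (c • x) / ‖x‖)) ≤ᵐ[volume]
        (fun x : E d => ENNReal.ofReal (u x / ‖x‖)) := by
      refine Eventually.of_forall (fun x => ?_)
      apply ENNReal.ofReal_le_ofReal
      apply div_le_div_of_nonneg_right _ (norm_nonneg _)
      apply hu
      rw [norm_smul, Real.norm_eq_abs, abs_of_pos hc0]
      nlinarith [norm_nonneg x]
    rw [lintegral_sub hgm hgfin hle, e1, e2, hIc]
    have ha0 : 0 ≤ (c ^ (d - 1))⁻¹ := by positivity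
    have e3 : Iw u - ENNReal.ofReal ((c ^ (d - 1))⁻¹) * Iw u =
        ENNReal.ofReal (1 - (c ^ (d - 1))⁻¹) * Iw u := by
      rw [ENNReal.ofReal_sub _ ha0, ENNReal.ofReal_one, ENNReal.sub_mul (fun _ _ => hI),
        one_mul]
    rw [e3, ← mul_assoc, ← ENNReal.ofReal_mul (Nat.cast_nonneg n)]
    exact mul_le_mul_left (ENNReal.ofReal_le_ofReal hbern) _
  calc ∫⁻ x : E d, ‖fderiv ℝ u x‖ₑ
      ≤ ∫⁻ x : E d, liminf (fun n : ℕ =>
          ENNReal.ofReal ((n : ℝ) * (u x - u ((1 + 1 / (n : ℝ)) • x)) / ‖x‖)) atTop :=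
        lintegral_mono_ae hae
    _ ≤ liminf (fun n : ℕ => ∫⁻ x : E d,
          ENNReal.ofReal ((n : ℝ) * (u x - u ((1 + 1 / (n : ℝ)) • x)) / ‖x‖)) atTop :=
        lintegral_liminf_le hmeas
    _ ≤ ENNReal.ofReal ((d : ℝ) - 1) * Iw u :=
        liminf_le_of_frequently_le' (Frequently.of_forall hint)

end Vale.Agent.H70.P137
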