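import Mathlib
import Vale.Agent.H70.P137.Defs
import Vale.Agent.H70.P137.Dil

/-!
# P137, row R9: the Hardy inequality `∫ f/|x| ≤ 2 ∫ |∇f|` for radially nonincreasing `C^1` `f`

For `x ≠ 0`, by the fundamental theorem of calculus along the ray,
`f x - f (2 x) = - ∫_0^1 (fderiv ℝ f ((1+s) x)) x ds ≤ |x| ∫_0^1 ‖fderiv ℝ f ((1+s) x)‖ ds`.
Divide by `|x|`, integrate in `x`, Tonelli, and `lintegral_comp_smul_E`:
`Iw f - 2^(1-d) Iw f ≤ ∫_0^1 (1+s)^(-d) ds * ∫ ‖fderiv‖ ≤ ∫ ‖fderiv‖`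
(`lintegral_sub` needs `Iw f < ∞`; `Iw_comp_smul` with `c = 2`), and `1 - 2^(1-d) ≥ 1/2` for
`d ≥ 2`.
Helper lemmas in this file: names starting with `hardy_`.  (Proved by helper40, backup seat;
the statement of `Iw_le_two_mul` is exactly the one of the stub.)
-/

open MeasureTheory Metric Set
open scoped ENNReal

namespace Vale.Agent.H70.P137

/-- The ray estimate behind ROW R9 (fundamental theorem of calculus along `s ↦ (1+s) x`). -/
theorem hardy_ray {d : ℕ} (f : E d → ℝ) (hf1 : ContDiff ℝ 1 f) (x : E d) :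
    f x - f ((2:ℝ) • x) ≤ ‖x‖ * ∫ s in (0:ℝ)..1, ‖fderiv ℝ f ((1 + s) • x)‖ := by
  have hdiff : Differentiable ℝ f := hf1.differentiable (by norm_num)
  have hcont : Continuous (fderiv ℝ f) := hf1.continuous_fderiv (by norm_num)
  have hpath : Continuous (fun s : ℝ => (1 + s) • x) := by fun_prop
  have hg : ∀ s : ℝ, HasDerivAt (fun s : ℝ => f ((1 + s) • x))
      (fderiv ℝ f ((1 + s) • x) x) s := by
    intro s
    have h1 : HasDerivAt (fun s : ℝ => (1 + s) • x) x s := by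
      have := ((hasDerivAt_id s).const_add (1:ℝ)).smul_const x
      simpa using this
    exact (hdiff ((1 + s) • x)).hasFDerivAt.comp_hasDerivAt s h1
  have hc' : Continuous (fun s : ℝ => fderiv ℝ f ((1 + s) • x) x) :=
    (hcont.comp hpath).clm_apply continuous_const
  have hcN : Continuous (fun s : ℝ => ‖fderiv ℝ f ((1 + s) • x)‖) := (hcont.comp hpath).norm
  have hftc := intervalIntegral.integral_eq_sub_of_hasDerivAt (a := (0:ℝ)) (b := 1)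
    (fun s _ => hg s) (hc'.intervalIntegrable 0 1)
  have h2 : f x - f ((2:ℝ) • x) = ∫ s in (0:ℝ)..1, - (fderiv ℝ f ((1 + s) • x) x) := by
    rw [intervalIntegral.integral_neg, hftc]
    norm_num
  rw [h2, ← intervalIntegral.integral_const_mul]
  apply intervalIntegral.integral_mono_on (by norm_num) (hc'.neg.intervalIntegrable 0 1)
    ((hcN.const_mul ‖x‖).intervalIntegrable 0 1)
  intro s _
  calc -(fderiv ℝ f ((1 + s) • x) x) ≤ ‖fderiv ℝ f ((1 + s) • x) x‖ := by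
        rw [Real.norm_eq_abs]; exact neg_le_abs _
    _ ≤ ‖fderiv ℝ f ((1 + s) • x)‖ * ‖x‖ := ContinuousLinearMap.le_opNorm _ _
    _ = ‖x‖ * ‖fderiv ℝ f ((1 + s) • x)‖ := mul_comm _ _

/-- ROW R9 without the monotonicity hypothesis (which the proof does not use): the Hardy
inequality for every nonnegative `C^1` function with `Iw f < ∞`, `d ≥ 2`. -/
theorem Iw_le_two_mul_gen {d : ℕ} (hd : 2 ≤ d) (f : E d → ℝ)
    (hf0 : ∀ x, 0 ≤ f x) (hf1 : ContDiff ℝ 1 f) (hI : Iw f < ⊤) :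
    Iw f ≤ 2 * ∫⁻ x : E d, ‖fderiv ℝ f x‖ₑ := by
  set J : ℝ≥0∞ := ∫⁻ x : E d, ‖fderiv ℝ f x‖ₑ with hJ
  have hcont : Continuous (fderiv ℝ f) := hf1.continuous_fderiv (by norm_num)
  have hpt : ∀ x : E d, ENNReal.ofReal (f x / ‖x‖) ≤ ENNReal.ofReal (f ((2:ℝ) • x) / ‖x‖)
      + ∫⁻ s in Ioc (0:ℝ) 1, ‖fderiv ℝ f ((1 + s) • x)‖ₑ := by
    intro x
    by_cases hx : x = 0
    · subst hx; simp
    have hxn : 0 < ‖x‖ := norm_pos_iff.mpr hx
    have hcN : Continuous (fun s : ℝ => ‖fderiv ℝ f ((1 + s) • x)‖) :=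
      (hcont.comp (by fun_prop)).norm
    have h1 := hardy_ray f hf1 x
    have h2 : ENNReal.ofReal (∫ s in (0:ℝ)..1, ‖fderiv ℝ f ((1 + s) • x)‖)
        = ∫⁻ s in Ioc (0:ℝ) 1, ‖fderiv ℝ f ((1 + s) • x)‖ₑ := by
      rw [intervalIntegral.integral_of_le (by norm_num : (0:ℝ) ≤ 1),
        ofReal_integral_eq_lintegral_ofReal (hcN.intervalIntegrable 0 1).1
          (Filter.Eventually.of_forall fun s => norm_nonneg _)]
      simp only [ofReal_norm]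
    rw [← h2, ← ENNReal.ofReal_add (div_nonneg (hf0 _) hxn.le)
      (intervalIntegral.integral_nonneg (by norm_num) fun s _ => norm_nonneg _)]
    apply ENNReal.ofReal_le_ofReal
    rw [div_le_iff₀ hxn, add_mul, div_mul_cancel₀ _ hxn.ne']
    nlinarith [h1]
  have hmeas : Measurable (Function.uncurry fun (x : E d) (s : ℝ) =>
      ‖fderiv ℝ f ((1 + s) • x)‖ₑ) := by
    have hc : Continuous (Function.uncurry fun (x : E d) (s : ℝ) =>
        ‖fderiv ℝ f ((1 + s) • x)‖ₑ) := by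
      unfold Function.uncurry
      exact (hcont.comp (by fun_prop)).enorm
    exact hc.measurable
  have hswap : ∫⁻ x : E d, ∫⁻ s in Ioc (0:ℝ) 1, ‖fderiv ℝ f ((1 + s) • x)‖ₑ
      = ∫⁻ s in Ioc (0:ℝ) 1, ∫⁻ x : E d, ‖fderiv ℝ f ((1 + s) • x)‖ₑ :=
    lintegral_lintegral_swap hmeas.aemeasurable
  have hinner : ∀ s ∈ Ioc (0:ℝ) 1, ∫⁻ x : E d, ‖fderiv ℝ f ((1 + s) • x)‖ₑ ≤ J := by
    intro s hs
    have hs0 : 0 < 1 + s := by linarith [hs.1]
    rw [lintegral_comp_smul_E (fun y => ‖fderiv ℝ f y‖ₑ) (1 + s) hs0]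
    calc ENNReal.ofReal (((1 + s) ^ d)⁻¹) * J ≤ 1 * J := by
          gcongr
          rw [ENNReal.ofReal_le_one]
          exact inv_le_one_of_one_le₀ (one_le_pow₀ (by linarith [hs.1]))
      _ = J := one_mul _
  have hsec : ∫⁻ x : E d, ∫⁻ s in Ioc (0:ℝ) 1, ‖fderiv ℝ f ((1 + s) • x)‖ₑ ≤ J := by
    rw [hswap]
    calc ∫⁻ s in Ioc (0:ℝ) 1, ∫⁻ x : E d, ‖fderiv ℝ f ((1 + s) • x)‖ₑ
        ≤ ∫⁻ s in Ioc (0:ℝ) 1, J := setLIntegral_mono' measurableSet_Ioc hinner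
      _ = J := by simp
  have hfirst : ∫⁻ x : E d, ENNReal.ofReal (f ((2:ℝ) • x) / ‖x‖)
      = ENNReal.ofReal ((2 ^ (d - 1))⁻¹) * Iw f :=
    Iw_comp_smul (by omega) f 2 (by norm_num)
  have hm1 : Measurable fun x : E d => ENNReal.ofReal (f ((2:ℝ) • x) / ‖x‖) := by
    have hc : Continuous fun x : E d => f ((2:ℝ) • x) := hf1.continuous.comp (by fun_prop)
    exact (hc.measurable.div measurable_norm).ennreal_ofReal
  have ha : ENNReal.ofReal ((2 ^ (d - 1))⁻¹) ≤ (2⁻¹ : ℝ≥0∞) := by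
    rw [ENNReal.ofReal_le_iff_le_toReal (by simp)]
    have h2 : (2:ℝ) ≤ 2 ^ (d - 1) := by
      calc (2:ℝ) = 2 ^ 1 := by norm_num
        _ ≤ 2 ^ (d - 1) := pow_le_pow_right₀ (by norm_num) (by omega)
    have : ((2:ℝ) ^ (d - 1))⁻¹ ≤ 2⁻¹ := inv_anti₀ (by norm_num) h2
    simpa using this
  have hmain : Iw f ≤ 2⁻¹ * Iw f + J := by
    calc Iw f = ∫⁻ x : E d, ENNReal.ofReal (f x / ‖x‖) := rfl
      _ ≤ ∫⁻ x : E d, (ENNReal.ofReal (f ((2:ℝ) • x) / ‖x‖)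
            + ∫⁻ s in Ioc (0:ℝ) 1, ‖fderiv ℝ f ((1 + s) • x)‖ₑ) := lintegral_mono hpt
      _ = (∫⁻ x : E d, ENNReal.ofReal (f ((2:ℝ) • x) / ‖x‖))
            + ∫⁻ x : E d, ∫⁻ s in Ioc (0:ℝ) 1, ‖fderiv ℝ f ((1 + s) • x)‖ₑ :=
          lintegral_add_left hm1 _
      _ ≤ 2⁻¹ * Iw f + J := by
          rw [hfirst]
          gcongr
  have hfin : 2⁻¹ * Iw f ≠ ⊤ := ENNReal.mul_ne_top (by simp) hI.ne
  have hhalf : 2⁻¹ * Iw f ≤ J := by
    have h : 2⁻¹ * Iw f + 2⁻¹ * Iw f ≤ 2⁻¹ * Iw f + J := by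
      rw [← add_mul, ENNReal.inv_two_add_inv_two, one_mul]
      exact hmain
    exact (ENNReal.add_le_add_iff_left hfin).mp h
  calc Iw f = 2 * (2⁻¹ * Iw f) := by
        rw [← mul_assoc, ENNReal.mul_inv_cancel (by norm_num) (by norm_num), one_mul]
    _ ≤ 2 * J := by gcongr

/-- ROW R9. -/
theorem Iw_le_two_mul {d : ℕ} (hd : 2 ≤ d) (f : E d → ℝ) (_hf : RadAnti f)
    (hf0 : ∀ x, 0 ≤ f x) (hf1 : ContDiff ℝ 1 f) (hI : Iw f < ⊤) :
    Iw f ≤ 2 * ∫⁻ x : E d, ‖fderiv ℝ f x‖ₑ :=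
  Iw_le_two_mul_gen hd f hf0 hf1 hI

end Vale.Agent.H70.P137
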