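import Mathlib
import Vale.Agent.H70.P137.Defs

/-!
# P137, row R10: two integrals over the unit ball

`lintegral_ball_inv_norm_pow`: `∫_{B(0,1)} |z|^(1-d) dz = d |B(0,1)|` for `d ≥ 1`
(polar coordinates: `integral_fun_norm_addHaar` with the function
`t ↦ indicator of [0,1) times (t^(d-1))⁻¹`, then `∫_0^1 t^(d-1) (t^(d-1))⁻¹ dt = 1`; pass
between the Bochner integral and the lower integral with
`ofReal_integral_eq_lintegral_ofReal`; or the layer-cake formula with `Measure.addHaar_ball`).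
`lintegral_ball_inv_norm_lt_top`: `∫_{B(0,1)} |z|^(-1) dz < ∞` for `d ≥ 2`: on the unit ball
`|z|⁻¹ ≤ (|z|^(d-1))⁻¹` (also at `z = 0`, where both are `0`), so it follows from the first.
Helper lemmas in this file: names starting with `polar_`.
-/

open MeasureTheory Metric Set
open scoped ENNReal

namespace Vale.Agent.H70.P137

/-- The radial profile `t ↦ (t^(d-1))⁻¹` cut off at `t < 1`. -/
noncomputable def polar_F (d : ℕ) : ℝ → ℝ := (Iio (1 : ℝ)).indicator (fun t => (t ^ (d - 1))⁻¹)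

theorem polar_smul_eq (d : ℕ) (y : ℝ) (hy : y ∈ Ioi (0 : ℝ)) :
    y ^ (d - 1) • polar_F d y = (Ioo (0 : ℝ) 1).indicator (fun _ => (1 : ℝ)) y := by
  have hy0 : (0 : ℝ) < y := hy
  by_cases h1 : y < 1
  · have hm : y ∈ Ioo (0 : ℝ) 1 := ⟨hy0, h1⟩
    have hm' : y ∈ Iio (1 : ℝ) := h1
    rw [polar_F, indicator_of_mem hm', indicator_of_mem hm, smul_eq_mul]
    exact mul_inv_cancel₀ (pow_ne_zero _ hy0.ne')
  · have hm : y ∉ Ioo (0 : ℝ) 1 := fun h => h1 h.2
    have hm' : y ∉ Iio (1 : ℝ) := h1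
    rw [polar_F, indicator_of_notMem hm', indicator_of_notMem hm, smul_zero]

theorem polar_integrableOn (d : ℕ) :
    IntegrableOn (fun y : ℝ => y ^ (d - 1) • polar_F d y) (Ioi 0) := by
  have h : IntegrableOn ((Ioo (0 : ℝ) 1).indicator (fun _ => (1 : ℝ))) (Ioi 0) := by
    apply Integrable.integrableOn
    rw [integrable_indicator_iff measurableSet_Ioo]
    exact integrableOn_const (by simp)
  exact h.congr_fun (fun y hy => (polar_smul_eq d y hy).symm) measurableSet_Ioi

theorem polar_integral (d : ℕ) :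
    ∫ y in Ioi (0 : ℝ), y ^ (d - 1) • polar_F d y = 1 := by
  rw [setIntegral_congr_fun measurableSet_Ioi (fun y hy => polar_smul_eq d y hy)]
  rw [setIntegral_indicator measurableSet_Ioo]
  have : Ioi (0 : ℝ) ∩ Ioo 0 1 = Ioo 0 1 := by
    ext y
    constructor
    · intro h
      exact h.2
    · intro h
      exact ⟨h.1, h⟩
  rw [this]
  simp

/-- ROW R10a. -/
theorem lintegral_ball_inv_norm_pow {d : ℕ} (hd : 1 ≤ d) :
    ∫⁻ z in ball (0 : E d) 1, ENNReal.ofReal ((‖z‖ ^ (d - 1))⁻¹)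
      = (d : ℝ≥0∞) * volume (ball (0 : E d) 1) := by
  have : Nonempty (Fin d) := ⟨⟨0, hd⟩⟩
  have : Nontrivial (E d) := inferInstance
  have hint : Integrable (fun z : E d => polar_F d ‖z‖) volume := by
    rw [integrable_fun_norm_addHaar (volume : Measure (E d)) (f := polar_F d)]
    rw [finrank_euclideanSpace_fin]
    exact polar_integrableOn d
  have hnn : ∀ z : E d, 0 ≤ polar_F d ‖z‖ := by
    intro z
    by_cases hz : ‖z‖ < 1
    · have hm' : ‖z‖ ∈ Iio (1 : ℝ) := hz
      rw [polar_F, indicator_of_mem hm']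
      positivity
    · have hm' : ‖z‖ ∉ Iio (1 : ℝ) := hz
      rw [polar_F, indicator_of_notMem hm']
  have hval : ∀ z : E d,
      (ball (0 : E d) 1).indicator (fun z => ENNReal.ofReal ((‖z‖ ^ (d - 1))⁻¹)) z
        = ENNReal.ofReal (polar_F d ‖z‖) := by
    intro z
    by_cases hz : ‖z‖ < 1
    · have hm : z ∈ ball (0 : E d) 1 := by simpa using hz
      have hm' : ‖z‖ ∈ Iio (1 : ℝ) := hz
      rw [indicator_of_mem hm, polar_F, indicator_of_mem hm']
    · have hm : z ∉ ball (0 : E d) 1 := by simpa using hz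
      have hm' : ‖z‖ ∉ Iio (1 : ℝ) := hz
      rw [indicator_of_notMem hm, polar_F, indicator_of_notMem hm', ENNReal.ofReal_zero]
  rw [← lintegral_indicator measurableSet_ball]
  rw [lintegral_congr hval]
  rw [← ofReal_integral_eq_lintegral_ofReal hint (Filter.Eventually.of_forall hnn)]
  rw [integral_fun_norm_addHaar (volume : Measure (E d)) (polar_F d), finrank_euclideanSpace_fin,
    polar_integral d]
  rw [smul_eq_mul, mul_one, nsmul_eq_mul, ENNReal.ofReal_mul (Nat.cast_nonneg d),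
    ENNReal.ofReal_natCast, Measure.real, ENNReal.ofReal_toReal measure_ball_lt_top.ne]

/-- ROW R10b. -/
theorem lintegral_ball_inv_norm_lt_top {d : ℕ} (hd : 2 ≤ d) :
    ∫⁻ z in ball (0 : E d) 1, ENNReal.ofReal (‖z‖⁻¹) < ⊤ := by
  have h1 : ∫⁻ z in ball (0 : E d) 1, ENNReal.ofReal (‖z‖⁻¹)
      ≤ ∫⁻ z in ball (0 : E d) 1, ENNReal.ofReal ((‖z‖ ^ (d - 1))⁻¹) := by
    apply setLIntegral_mono' measurableSet_ball
    intro z hz
    apply ENNReal.ofReal_le_ofReal
    have hz1 : ‖z‖ < 1 := by simpa using hz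
    rcases eq_or_lt_of_le (norm_nonneg z) with h0 | h0
    · rw [← h0]
      have h00 : (0 : ℝ) ^ (d - 1) = 0 := zero_pow (by omega)
      rw [h00]
    · have hp : ‖z‖ ^ (d - 1) ≤ ‖z‖ := by
        calc ‖z‖ ^ (d - 1) ≤ ‖z‖ ^ 1 := pow_le_pow_of_le_one h0.le hz1.le (by omega)
          _ = ‖z‖ := pow_one _
      exact inv_anti₀ (pow_pos h0 _) hp
  refine lt_of_le_of_lt h1 ?_
  rw [lintegral_ball_inv_norm_pow (by omega : 1 ≤ d)]
  exact ENNReal.mul_lt_top (by simp) measure_ball_lt_top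

end Vale.Agent.H70.P137
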