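import Mathlib
import Vale.Agent.H70.P137.Defs
import Vale.Agent.H70.P137.Polar

/-!
# P137, row R13: `∫ f/|x| < ∞` for bounded integrable `f ≥ 0` in dimension `d ≥ 2`

Split the lower integral over the unit ball and its complement
(`lintegral_add_compl`). On the ball `f x / |x| ≤ c |x|⁻¹` (`0 ≤ c` from `hf0`, `hc`) and
`lintegral_ball_inv_norm_lt_top`; outside `f x / |x| ≤ f x`, and `∫ ofReal (f x) dx < ∞`
because `f` is integrable (`Integrable.lintegral_lt_top`).
Helper lemmas in this file: names starting with `hfin_`.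
-/

open MeasureTheory Metric Set
open scoped ENNReal

namespace Vale.Agent.H70.P137

/-- ROW R13. -/
theorem Iw_lt_top {d : ℕ} (hd : 2 ≤ d) (f : E d → ℝ) (hf0 : ∀ x, 0 ≤ f x) (c : ℝ)
    (hc : ∀ y, f y ≤ c) (hfc : Continuous f) (hfi : Integrable f) : Iw f < ⊤ := by
  have _hcont : Continuous f := hfc
  have hc0 : 0 ≤ c := (hf0 0).trans (hc 0)
  have hB : MeasurableSet (ball (0 : E d) 1) := measurableSet_ball
  unfold Iw
  rw [← lintegral_add_compl _ hB]
  have h1 : ∫⁻ x in ball (0 : E d) 1, ENNReal.ofReal (f x / ‖x‖) < ⊤ := by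
    calc ∫⁻ x in ball (0 : E d) 1, ENNReal.ofReal (f x / ‖x‖)
        ≤ ∫⁻ x in ball (0 : E d) 1, ENNReal.ofReal c * ENNReal.ofReal (‖x‖⁻¹) := by
          refine lintegral_mono fun x => ?_
          rw [← ENNReal.ofReal_mul hc0, div_eq_mul_inv]
          exact ENNReal.ofReal_le_ofReal
            (mul_le_mul_of_nonneg_right (hc x) (inv_nonneg.2 (norm_nonneg x)))
      _ = ENNReal.ofReal c * ∫⁻ x in ball (0 : E d) 1, ENNReal.ofReal (‖x‖⁻¹) :=
          lintegral_const_mul' _ _ ENNReal.ofReal_ne_top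
      _ < ⊤ := ENNReal.mul_lt_top ENNReal.ofReal_lt_top (lintegral_ball_inv_norm_lt_top hd)
  have h2 : ∫⁻ x in (ball (0 : E d) 1)ᶜ, ENNReal.ofReal (f x / ‖x‖) < ⊤ := by
    calc ∫⁻ x in (ball (0 : E d) 1)ᶜ, ENNReal.ofReal (f x / ‖x‖)
        ≤ ∫⁻ x in (ball (0 : E d) 1)ᶜ, ENNReal.ofReal (f x) := by
          refine setLIntegral_mono' hB.compl fun x hx => ?_
          have hx1 : 1 ≤ ‖x‖ := by
            have hx' : x ∉ ball (0 : E d) 1 := hx
            rw [mem_ball, dist_zero_right, not_lt] at hx'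
            exact hx'
          exact ENNReal.ofReal_le_ofReal (div_le_self (hf0 x) hx1)
      _ ≤ ∫⁻ x, ENNReal.ofReal (f x) := setLIntegral_le_lintegral _ _
      _ < ⊤ := hfi.lintegral_lt_top
  exact ENNReal.add_lt_top.2 ⟨h1, h2⟩

end Vale.Agent.H70.P137
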