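import Mathlib
import Vale.Agent.H70.P137.Defs

/-!
# P137, row R1: the reflection lemma

If `|x| ≤ |y|` and `f` is radial and radially nonincreasing, then the integral of `f` over
`B(y, r)` is at most the integral over `B(x, r)`.

Proof. For `x ≠ y` let `ρ` be the reflection in the hyperplane bisecting `x` and `y`
(`ρ z = m + R (z - m)`, `m` the midpoint, `R` the linear reflection in the orthogonal
complement of `y - x`). It preserves Lebesgue measure and maps `B(y,r) \ B(x,r)` onto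
`B(x,r) \ B(y,r)`. A point `z` of `B(y,r) \ B(x,r)` is nearer to `y` than to `x`, and since
`|x| ≤ |y|` the origin is not on the `y`-side, so `|ρ z| ≤ |z|` and `f (ρ z) ≥ f z`. Hence
`∫_{B(x,r) \ B(y,r)} f = ∫_{B(y,r) \ B(x,r)} f ∘ ρ ≥ ∫_{B(y,r) \ B(x,r)} f`; add the common
part `B(x,r) ∩ B(y,r)`.
Helper lemmas in this file: names starting with `refl_`.
-/

open MeasureTheory Metric Set

namespace Vale.Agent.H70.P137

/-- the linear reflection in the hyperplane orthogonal to `v`, written out -/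
theorem refl_apply {d : ℕ} (v w : E d) :
    (Submodule.span ℝ {v})ᗮ.reflection w = w - (2 * inner ℝ v w / ‖v‖ ^ 2) • v := by
  rw [Submodule.reflection_orthogonal_apply, Submodule.reflection_singleton_apply]
  simp only [RCLike.ofReal_real_eq_id, id, two_nsmul]
  module

/-- the reflected point is not farther from the origin when the point is on the side of `y` -/
theorem refl_norm_le {d : ℕ} (x y z : E d) (hxy : ‖x‖ ≤ ‖y‖) (hz : dist z y ≤ dist z x) :
    ‖z - (2 * inner ℝ (y - x) (z - (1 / 2 : ℝ) • (x + y)) / ‖y - x‖ ^ 2) • (y - x)‖ ≤ ‖z‖ := by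
  by_cases hv0 : y - x = 0
  · simp [hv0]
  have hvpos : 0 < ‖y - x‖ ^ 2 := pow_pos (norm_pos_iff.mpr hv0) 2
  have hxx : inner ℝ x x = ‖x‖ ^ 2 := real_inner_self_eq_norm_sq x
  have hyy : inner ℝ y y = ‖y‖ ^ 2 := real_inner_self_eq_norm_sq y
  have hyx : inner ℝ y x = inner ℝ x y := real_inner_comm x y
  have hc : inner ℝ (y - x) ((1 / 2 : ℝ) • (x + y)) = (‖y‖ ^ 2 - ‖x‖ ^ 2) / 2 := by
    rw [real_inner_smul_right, inner_sub_left, inner_add_right, inner_add_right, hxx, hyy, hyx]
    ring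
  have hc0 : 0 ≤ inner ℝ (y - x) ((1 / 2 : ℝ) • (x + y)) := by
    rw [hc]
    have : ‖x‖ ^ 2 ≤ ‖y‖ ^ 2 := pow_le_pow_left₀ (norm_nonneg x) hxy 2
    linarith
  have hs : 0 ≤ inner ℝ (y - x) (z - (1 / 2 : ℝ) • (x + y)) := by
    have h1 : ‖z - y‖ ^ 2 ≤ ‖z - x‖ ^ 2 := by
      have h0 := hz
      rw [dist_eq_norm, dist_eq_norm] at h0
      exact pow_le_pow_left₀ (norm_nonneg _) h0 2
    rw [norm_sub_sq_real, norm_sub_sq_real] at h1
    rw [inner_sub_right, hc, inner_sub_left, real_inner_comm z y, real_inner_comm z x]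
    linarith
  have hzv : inner ℝ z (y - x) = inner ℝ (y - x) (z - (1 / 2 : ℝ) • (x + y))
      + inner ℝ (y - x) ((1 / 2 : ℝ) • (x + y)) := by
    rw [inner_sub_right (y - x) z, real_inner_comm z (y - x)]
    ring
  set s : ℝ := inner ℝ (y - x) (z - (1 / 2 : ℝ) • (x + y)) with hs_def
  set c : ℝ := inner ℝ (y - x) ((1 / 2 : ℝ) • (x + y)) with hc_def
  have key : ‖z - (2 * s / ‖y - x‖ ^ 2) • (y - x)‖ ^ 2 = ‖z‖ ^ 2 - 4 * s * c / ‖y - x‖ ^ 2 := by
    rw [norm_sub_sq_real, real_inner_smul_right, norm_smul, mul_pow, Real.norm_eq_abs, sq_abs, hzv]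
    field_simp
    ring
  have h2 : ‖z - (2 * s / ‖y - x‖ ^ 2) • (y - x)‖ ^ 2 ≤ ‖z‖ ^ 2 := by
    rw [key]
    have : 0 ≤ 4 * s * c / ‖y - x‖ ^ 2 := by positivity
    linarith
  exact (pow_le_pow_iff_left₀ (norm_nonneg _) (norm_nonneg _) two_ne_zero).1 h2

/-- the affine reflection swapping `x` and `y` -/
theorem refl_exists {d : ℕ} (x y : E d) (hxy : ‖x‖ ≤ ‖y‖) :
    ∃ ρ : E d → E d, Continuous ρ ∧ (∀ z, ρ (ρ z) = z) ∧ MeasurePreserving ρ volume volume ∧
      (∀ z w, dist (ρ z) (ρ w) = dist z w) ∧ ρ y = x ∧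
      (∀ z, dist z y ≤ dist z x → ‖ρ z‖ ≤ ‖z‖) := by
  have hRv : (Submodule.span ℝ {y - x})ᗮ.reflection (y - x) = -(y - x) :=
    Submodule.reflection_orthogonalComplement_singleton_eq_neg (y - x)
  refine ⟨fun z => (Submodule.span ℝ {y - x})ᗮ.reflection (z - (1 / 2 : ℝ) • (x + y))
    + (1 / 2 : ℝ) • (x + y), ?_, ?_, ?_, ?_, ?_, ?_⟩
  · fun_prop
  · intro z
    simp only [add_sub_cancel_right, Submodule.reflection_reflection, sub_add_cancel]
  · exact (measurePreserving_add_right volume ((1 / 2 : ℝ) • (x + y))).comp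
      ((LinearIsometryEquiv.measurePreserving
        ((Submodule.span ℝ {y - x})ᗮ.reflection)).comp
        (measurePreserving_sub_right volume ((1 / 2 : ℝ) • (x + y))))
  · intro z w
    simp only [dist_add_right, LinearIsometryEquiv.dist_map, dist_sub_right]
  · have h1 : y - (1 / 2 : ℝ) • (x + y) = (1 / 2 : ℝ) • (y - x) := by module
    simp only []
    rw [h1, map_smul, hRv]
    module
  · intro z hz
    have h := refl_norm_le x y z hxy hz
    have hρz : (Submodule.span ℝ {y - x})ᗮ.reflection (z - (1 / 2 : ℝ) • (x + y))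
        + (1 / 2 : ℝ) • (x + y)
        = z - (2 * inner ℝ (y - x) (z - (1 / 2 : ℝ) • (x + y)) / ‖y - x‖ ^ 2) • (y - x) := by
      rw [refl_apply]
      module
    simp only []
    rw [hρz]
    exact h

/-- ROW R1. -/
theorem setIntegral_ball_le {d : ℕ} (f : E d → ℝ) (hf : RadAnti f) (hfc : Continuous f)
    (x y : E d) (hxy : ‖x‖ ≤ ‖y‖) (r : ℝ) :
    ∫ z in ball y r, f z ≤ ∫ z in ball x r, f z := by
  obtain ⟨ρ, hρc, hρρ, hmp, hρdist, hρy, hρle⟩ := refl_exists x y hxy
  have hρx : ρ x = y := by rw [← hρy, hρρ]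
  have hemb : MeasurableEmbedding ρ :=
    (Homeomorph.mk ⟨ρ, ρ, hρρ, hρρ⟩ hρc hρc).measurableEmbedding
  have hpre1 : ρ ⁻¹' (ball x r) = ball y r := by
    ext z
    simp only [mem_preimage, mem_ball]
    rw [← hρy, hρdist]
  have hpre2 : ρ ⁻¹' (ball y r) = ball x r := by
    ext z
    simp only [mem_preimage, mem_ball]
    rw [← hρx, hρdist]
  have hint : ∀ g : E d → ℝ, Continuous g → ∀ c : E d, IntegrableOn g (ball c r) volume := by
    intro g hg c
    exact (hg.continuousOn.integrableOn_compact (isCompact_closedBall c r)).mono_set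
      ball_subset_closedBall
  have hfρ : Continuous (fun z => f (ρ z)) := hfc.comp hρc
  have h1 : ∫ z in ball x r, f z = ∫ z in ball y r, f (ρ z) := by
    rw [← hpre1]
    exact (hmp.setIntegral_preimage_emb hemb f (ball x r)).symm
  have h2 : ∫ z in ball y r ∩ ball x r, f (ρ z) = ∫ z in ball y r ∩ ball x r, f z := by
    have hpre : ρ ⁻¹' (ball y r ∩ ball x r) = ball y r ∩ ball x r := by
      rw [preimage_inter, hpre1, hpre2, inter_comm]
    have h0 := hmp.setIntegral_preimage_emb hemb f (ball y r ∩ ball x r)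
    rw [hpre] at h0
    exact h0
  have h3 : ∫ z in ball y r \ ball x r, f z ≤ ∫ z in ball y r \ ball x r, f (ρ z) := by
    refine setIntegral_mono_on ((hint f hfc y).mono_set sdiff_subset)
      ((hint _ hfρ y).mono_set sdiff_subset) (measurableSet_ball.diff measurableSet_ball) ?_
    intro z hz
    apply hf
    apply hρle
    have h4 := mem_ball.1 hz.1
    have h5 : ¬ dist z x < r := fun h => hz.2 (mem_ball.2 h)
    linarith [not_lt.1 h5]
  calc ∫ z in ball y r, f z
      = (∫ z in ball y r ∩ ball x r, f z) + ∫ z in ball y r \ ball x r, f z :=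
        (integral_inter_add_sdiff (measurableSet_ball (x := x) (ε := r)) (hint f hfc y)).symm
    _ ≤ (∫ z in ball y r ∩ ball x r, f (ρ z)) + ∫ z in ball y r \ ball x r, f (ρ z) := by
        rw [h2]
        linarith
    _ = ∫ z in ball y r, f (ρ z) :=
        integral_inter_add_sdiff (measurableSet_ball (x := x) (ε := r)) (hint _ hfρ y)
    _ = ∫ z in ball x r, f z := h1.symm

end Vale.Agent.H70.P137
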