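import Mathlib
import Vale.Agent.H70.P137.Defs
import Vale.Agent.H70.P137.Refl

/-!
# P137, row R2: elementary properties of the ball averages and of the maximal function

Bounds `0 ≤ ballAvg ≤ c`, boundedness of the family of averages (so the supremum in `cM` is a
true supremum), and: the maximal function of a radial, radially nonincreasing, continuous,
nonnegative bounded function is again radial and radially nonincreasing (from R1: all balls
of radius `r` have the same volume).
Helper lemmas in this file: names starting with `mono_`.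
-/

open MeasureTheory Metric Set

namespace Vale.Agent.H70.P137

theorem ballAvg_nonneg {d : ℕ} (f : E d → ℝ) (x : E d) (r : ℝ) : 0 ≤ ballAvg f x r := by
  unfold ballAvg
  exact mul_nonneg (inv_nonneg.2 ENNReal.toReal_nonneg) (integral_nonneg (fun y => abs_nonneg _))

theorem ballAvg_le {d : ℕ} (f : E d → ℝ) (c : ℝ) (hc0 : 0 ≤ c) (hc : ∀ y, |f y| ≤ c)
    (x : E d) (r : ℝ) : ballAvg f x r ≤ c := by
  unfold ballAvg
  have hfin : volume (ball x r) ≠ ⊤ := measure_ball_lt_top.ne
  have h1 : ∫ y in ball x r, |f y| ≤ ∫ y in ball x r, c := by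
    apply integral_mono_of_nonneg
    · exact Filter.Eventually.of_forall (fun y => abs_nonneg _)
    · exact integrableOn_const hfin
    · exact Filter.Eventually.of_forall hc
  have h2 : ∫ y in ball x r, c = (volume (ball x r)).toReal * c := by
    rw [setIntegral_const]
    rfl
  rw [h2] at h1
  by_cases hv : (volume (ball x r)).toReal = 0
  · rw [hv, inv_zero, zero_mul]
    exact hc0
  · have hpos : 0 < (volume (ball x r)).toReal :=
      lt_of_le_of_ne ENNReal.toReal_nonneg (Ne.symm hv)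
    calc (volume (ball x r)).toReal⁻¹ * ∫ y in ball x r, |f y|
        ≤ (volume (ball x r)).toReal⁻¹ * ((volume (ball x r)).toReal * c) :=
          mul_le_mul_of_nonneg_left h1 (inv_nonneg.2 hpos.le)
      _ = c := by field_simp

theorem bddAbove_ballAvg {d : ℕ} (f : E d → ℝ) (c : ℝ) (hc0 : 0 ≤ c) (hc : ∀ y, |f y| ≤ c)
    (x : E d) : BddAbove (Set.range fun r : {r : ℝ // 0 < r} => ballAvg f x r) := by
  refine ⟨c, ?_⟩
  rintro _ ⟨r, rfl⟩
  exact ballAvg_le f c hc0 hc x r

theorem ballAvg_le_cM {d : ℕ} (f : E d → ℝ) (c : ℝ) (hc0 : 0 ≤ c) (hc : ∀ y, |f y| ≤ c)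
    (x : E d) (r : ℝ) (hr : 0 < r) : ballAvg f x r ≤ cM f x := by
  exact le_ciSup (f := fun r : {r : ℝ // 0 < r} => ballAvg f x r)
    (bddAbove_ballAvg f c hc0 hc x) ⟨r, hr⟩

theorem cM_nonneg {d : ℕ} (f : E d → ℝ) (x : E d) : 0 ≤ cM f x := by
  exact Real.iSup_nonneg (fun r => ballAvg_nonneg f x r)

theorem cM_le {d : ℕ} (f : E d → ℝ) (c : ℝ) (hc0 : 0 ≤ c) (hc : ∀ y, |f y| ≤ c) (x : E d) :
    cM f x ≤ c := by
  exact Real.iSup_le (fun r => ballAvg_le f c hc0 hc x r) hc0

/-- ROW R2 (main). -/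
theorem cM_radAnti {d : ℕ} (f : E d → ℝ) (hf : RadAnti f) (hf0 : ∀ x, 0 ≤ f x)
    (hfc : Continuous f) (c : ℝ) (hc : ∀ y, f y ≤ c) : RadAnti (cM f) := by
  intro x y hxy
  have hc0 : 0 ≤ c := (hf0 0).trans (hc 0)
  have habs : ∀ z, |f z| = f z := fun z => abs_of_nonneg (hf0 z)
  have hc' : ∀ z, |f z| ≤ c := fun z => by rw [habs z]; exact hc z
  apply Real.iSup_le _ (cM_nonneg f x)
  intro r
  refine le_trans ?_ (ballAvg_le_cM f c hc0 hc' x r.1 r.2)
  unfold ballAvg
  have hvol : volume (ball y (r : ℝ)) = volume (ball x (r : ℝ)) := by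
    rw [Measure.addHaar_ball_center volume y, Measure.addHaar_ball_center volume x]
  rw [hvol]
  apply mul_le_mul_of_nonneg_left _ (inv_nonneg.2 ENNReal.toReal_nonneg)
  simp only [habs]
  exact setIntegral_ball_le f hf hfc x y hxy r

end Vale.Agent.H70.P137
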