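import Mathlib
import Vale.Agent.H70.P137.Defs
import Vale.Agent.H70.P137.Mono

/-!
# P137, row R3: the maximal function of a bounded `K`-Lipschitz function is `K`-Lipschitz

`ballAvg f x r` is the average over `z ∈ B(0, r)` of `|f (x + z)|` (translation invariance of
Lebesgue measure), so `|ballAvg f x r - ballAvg f y r| ≤ K dist x y`; a supremum of a bounded
family of `K`-Lipschitz functions is `K`-Lipschitz.
Helper lemmas in this file: names starting with `lip_`.
-/

open MeasureTheory Metric Set
open scoped NNReal

namespace Vale.Agent.H70.P137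

theorem lip_setIntegral_shift {d : ℕ} (g : E d → ℝ) (x y : E d) (r : ℝ) :
    ∫ w in Metric.ball x r, g w = ∫ w in Metric.ball y r, g (w + (x - y)) := by
  have hmem : ∀ w : E d, w + (x - y) ∈ Metric.ball x r ↔ w ∈ Metric.ball y r := by
    intro w
    rw [Metric.mem_ball, Metric.mem_ball, dist_eq_norm, dist_eq_norm]
    have e : w + (x - y) - x = w - y := by abel
    rw [e]
  calc ∫ w in Metric.ball x r, g w
      = ∫ w, (Metric.ball x r).indicator g w := (integral_indicator measurableSet_ball).symm
    _ = ∫ w, (Metric.ball x r).indicator g (w + (x - y)) :=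
        (integral_add_right_eq_self (μ := volume) ((Metric.ball x r).indicator g) (x - y)).symm
    _ = ∫ w, (Metric.ball y r).indicator (fun w => g (w + (x - y))) w := by
        congr 1
        funext w
        by_cases hw : w ∈ Metric.ball y r
        · rw [Set.indicator_of_mem ((hmem w).2 hw), Set.indicator_of_mem hw]
        · rw [Set.indicator_of_notMem (fun h => hw ((hmem w).1 h)), Set.indicator_of_notMem hw]
    _ = ∫ w in Metric.ball y r, g (w + (x - y)) := integral_indicator measurableSet_ball

theorem lip_ballAvg {d : ℕ} (f : E d → ℝ) (K : ℝ≥0) (hK : LipschitzWith K f) (c : ℝ)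
    (hc : ∀ y, |f y| ≤ c) (x y : E d) (r : ℝ) (hr : 0 < r) :
    ballAvg f x r ≤ ballAvg f y r + K * dist x y := by
  unfold ballAvg
  have hvol : volume (Metric.ball x r) = volume (Metric.ball y r) := by
    rw [Measure.addHaar_ball_center volume x r, Measure.addHaar_ball_center volume y r]
  rw [hvol, lip_setIntegral_shift (fun w => |f w|) x y r]
  have hfin : volume (Metric.ball y r) ≠ ⊤ := measure_ball_lt_top.ne
  have hVpos : 0 < (volume (Metric.ball y r)).toReal :=
    ENNReal.toReal_pos (measure_ball_pos volume y hr).ne' hfin
  have hcont : Continuous f := hK.continuous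
  have hKd : (0 : ℝ) ≤ K * dist x y := mul_nonneg K.coe_nonneg dist_nonneg
  have hint1 : IntegrableOn (fun w => |f (w + (x - y))|) (Metric.ball y r) volume := by
    apply Measure.integrableOn_of_bounded (M := c) hfin
    · exact (continuous_abs.comp
        (hcont.comp (continuous_id.add continuous_const))).aestronglyMeasurable
    · refine Filter.Eventually.of_forall (fun w => ?_)
      rw [Real.norm_eq_abs, abs_abs]
      exact hc _
  have hint0 : IntegrableOn (fun w => |f w|) (Metric.ball y r) volume := by
    apply Measure.integrableOn_of_bounded (M := c) hfin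
    · exact (continuous_abs.comp hcont).aestronglyMeasurable
    · refine Filter.Eventually.of_forall (fun w => ?_)
      rw [Real.norm_eq_abs, abs_abs]
      exact hc _
  have hintc : IntegrableOn (fun _ : E d => (K : ℝ) * dist x y) (Metric.ball y r) volume :=
    integrableOn_const hfin
  have hle : ∫ w in Metric.ball y r, |f (w + (x - y))|
      ≤ ∫ w in Metric.ball y r, (|f w| + K * dist x y) := by
    apply setIntegral_mono hint1 (hint0.add hintc)
    intro w
    have h1 : dist (f (w + (x - y))) (f w) ≤ K * dist (w + (x - y)) w := hK.dist_le_mul _ _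
    have h2 : dist (w + (x - y)) w = dist x y := by
      rw [dist_eq_norm, dist_eq_norm]
      congr 1
      abel
    rw [h2, Real.dist_eq] at h1
    have h3 := abs_sub_abs_le_abs_sub (f (w + (x - y))) (f w)
    show |f (w + (x - y))| ≤ |f w| + K * dist x y
    linarith
  have hsplit : ∫ w in Metric.ball y r, (|f w| + K * dist x y)
      = (∫ w in Metric.ball y r, |f w|) + (volume (Metric.ball y r)).toReal * (K * dist x y) := by
    rw [integral_add hint0 hintc, setIntegral_const]
    rfl
  calc (volume (Metric.ball y r)).toReal⁻¹ * ∫ w in Metric.ball y r, |f (w + (x - y))|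
      ≤ (volume (Metric.ball y r)).toReal⁻¹ * ((∫ w in Metric.ball y r, |f w|)
          + (volume (Metric.ball y r)).toReal * (K * dist x y)) :=
        mul_le_mul_of_nonneg_left (hle.trans_eq hsplit) (inv_nonneg.2 hVpos.le)
    _ = (volume (Metric.ball y r)).toReal⁻¹ * (∫ w in Metric.ball y r, |f w|)
          + K * dist x y := by
        field_simp

/-- ROW R3. -/
theorem cM_lipschitz {d : ℕ} (f : E d → ℝ) (K : ℝ≥0) (hK : LipschitzWith K f) (c : ℝ)
    (hc0 : 0 ≤ c) (hc : ∀ y, |f y| ≤ c) : LipschitzWith K (cM f) := by
  apply LipschitzWith.of_le_add_mul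
  intro x y
  have : Nonempty {r : ℝ // 0 < r} := ⟨⟨1, one_pos⟩⟩
  unfold cM
  apply ciSup_le
  intro r
  have h1 := lip_ballAvg f K hK c hc x y r.1 r.2
  have h2 := ballAvg_le_cM f c hc0 hc y r.1 r.2
  unfold cM at h2
  linarith

end Vale.Agent.H70.P137
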