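import Mathlib
import Vale.Agent.H70.P137.Defs
import Vale.Agent.H70.P137.Mono
import Vale.Agent.H70.P137.CA

/-!
# P137, row R4: the pointwise bound for the maximal function of a radially nonincreasing function

For `x ≠ 0`: `cM f x ≤ f (x/2) + 3^d cA f (3|x|/2)`.

Proof. `ciSup_le`; fix `r > 0`. If `r ≤ |x|/2`, every `z ∈ B(x,r)` has `|z| ≥ |x|/2`, so
`f z ≤ f (x/2)` and the average is at most `f (x/2)`; the other term is `≥ 0` (`cA_nonneg`).
If `r > |x|/2`, then `B(x,r) ⊆ B(0,3r)`, so, `f` being nonnegative, the average is at most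
`|B(x,r)|⁻¹ ∫_{B(0,3r)} f = 3^d cA f (3r)` (`cA_eq`, `|B(0,3r)| = 3^d |B(x,r)|`), and
`cA f (3r) ≤ cA f (3|x|/2)` (`cA_anti`); the other term is `≥ 0`.
Helper lemmas in this file: names starting with `point_`.
-/

open MeasureTheory Metric Set

namespace Vale.Agent.H70.P137

theorem point_integrableOn {d : ℕ} (f : E d → ℝ) (hf0 : ∀ x, 0 ≤ f x)
    (hfc : Continuous f) (c : ℝ) (hc : ∀ y, f y ≤ c) (x : E d) (r : ℝ) :
    IntegrableOn f (ball x r) := by
  refine Measure.integrableOn_of_bounded (M := c) ?_ hfc.aestronglyMeasurable ?_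
  · exact measure_ball_lt_top.ne
  · filter_upwards with y
    rw [Real.norm_eq_abs, abs_of_nonneg (hf0 y)]
    exact hc y

/-- ROW R4. -/
theorem cM_le_point {d : ℕ} (hd : 1 ≤ d) (f : E d → ℝ) (hf : RadAnti f) (hf0 : ∀ x, 0 ≤ f x)
    (hfc : Continuous f) (c : ℝ) (hc : ∀ y, f y ≤ c) (x : E d) (hx : x ≠ 0) :
    cM f x ≤ f ((1 / 2 : ℝ) • x) + 3 ^ d * cA f (3 / 2 * ‖x‖) := by
  have hxn : 0 < ‖x‖ := norm_pos_iff.mpr hx
  have hA0 : ∀ R, 0 ≤ cA f R := fun R => cA_nonneg f hf0 R
  have : Nonempty {r : ℝ // 0 < r} := ⟨⟨1, one_pos⟩⟩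
  unfold cM
  refine ciSup_le ?_
  rintro ⟨r, hr⟩
  show ballAvg f x r ≤ _
  have hint : ∀ (y : E d) (s : ℝ), IntegrableOn f (ball y s) :=
    fun y s => point_integrableOn f hf0 hfc c hc y s
  have habs : (fun y => |f y|) = f := by
    funext y
    exact abs_of_nonneg (hf0 y)
  have hvol : (volume (ball x r)).toReal = r ^ d * (volume (ball (0 : E d) 1)).toReal := by
    rw [Measure.addHaar_ball_of_pos volume x hr, ENNReal.toReal_mul,
      ENNReal.toReal_ofReal (by positivity), finrank_euclideanSpace_fin]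
  have hm : 0 < (volume (ball (0 : E d) 1)).toReal := by
    refine ENNReal.toReal_pos ?_ ?_
    · exact (measure_ball_pos volume 0 one_pos).ne'
    · exact measure_ball_lt_top.ne
  have hvpos : 0 < (volume (ball x r)).toReal := by
    rw [hvol]
    positivity
  unfold ballAvg
  rw [habs]
  by_cases hcase : r ≤ ‖x‖ / 2
  · have h1 : ∫ y in ball x r, f y ≤ ∫ y in ball x r, f ((1 / 2 : ℝ) • x) := by
      refine setIntegral_mono_on (hint x r) (integrableOn_const (by exact measure_ball_lt_top.ne))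
        measurableSet_ball ?_
      intro z hz
      apply hf
      rw [norm_smul, Real.norm_eq_abs, abs_of_pos (by norm_num : (0 : ℝ) < 1 / 2)]
      have hz' : dist z x < r := hz
      rw [dist_eq_norm] at hz'
      have h9 : ‖x‖ - ‖z‖ ≤ ‖z - x‖ := by
        have h8 := norm_sub_norm_le x z
        rwa [norm_sub_rev] at h8
      linarith
    rw [setIntegral_const] at h1
    have h2 : (volume (ball x r)).toReal⁻¹ * ∫ y in ball x r, f y ≤ f ((1 / 2 : ℝ) • x) := by
      rw [inv_mul_le_iff₀ hvpos]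
      simpa [Measure.real, smul_eq_mul] using h1
    have h3 : 0 ≤ (3 : ℝ) ^ d * cA f (3 / 2 * ‖x‖) := mul_nonneg (by positivity) (hA0 _)
    linarith
  · rw [not_le] at hcase
    have hsub : ball x r ⊆ ball (0 : E d) (3 * r) := by
      intro z hz
      rw [mem_ball, dist_eq_norm] at hz
      rw [mem_ball, dist_zero_right]
      have h9 : ‖z‖ ≤ ‖z - x‖ + ‖x‖ := by
        have h8 := norm_add_le (z - x) x
        simpa using h8
      linarith
    have h1 : ∫ y in ball x r, f y ≤ ∫ y in ball (0 : E d) (3 * r), f y := by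
      refine setIntegral_mono_set (hint 0 (3 * r)) ?_ ?_
      · filter_upwards with y using hf0 y
      · exact hsub.eventuallyLE
    have h3r : 0 < 3 * r := by positivity
    have hAeq := cA_eq f (3 * r) h3r
    have hvol3 : (volume (ball (0 : E d) (3 * r))).toReal
        = (3 * r) ^ d * (volume (ball (0 : E d) 1)).toReal := by
      rw [Measure.addHaar_ball_of_pos volume 0 h3r, ENNReal.toReal_mul,
        ENNReal.toReal_ofReal (by positivity), finrank_euclideanSpace_fin]
    have hanti : cA f (3 * r) ≤ cA f (3 / 2 * ‖x‖) :=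
      cA_anti f hf hfc (3 / 2 * ‖x‖) (3 * r) (by positivity) (by linarith)
    have h2 : (volume (ball x r)).toReal⁻¹ * ∫ y in ball x r, f y ≤ 3 ^ d * cA f (3 * r) := by
      rw [hAeq, hvol3, hvol]
      have h7 : (3 : ℝ) ^ d * (((3 * r) ^ d * (volume (ball (0 : E d) 1)).toReal)⁻¹
          * ∫ y in ball (0 : E d) (3 * r), f y)
          = (r ^ d * (volume (ball (0 : E d) 1)).toReal)⁻¹
            * ∫ y in ball (0 : E d) (3 * r), f y := by
        rw [mul_pow]
        field_simp
      rw [h7]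
      exact mul_le_mul_of_nonneg_left h1 (inv_nonneg.mpr (by positivity))
    have h4 : 0 ≤ f ((1 / 2 : ℝ) • x) := hf0 _
    have h5 : (3 : ℝ) ^ d * cA f (3 * r) ≤ 3 ^ d * cA f (3 / 2 * ‖x‖) :=
      mul_le_mul_of_nonneg_left hanti (by positivity)
    linarith

end Vale.Agent.H70.P137
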