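import Mathlib
import Vale.Agent.H70.P137.Defs
import Vale.Agent.H70.P137.Dil
import Vale.Agent.H70.P137.Polar

/-!
# P137, row R12: the weighted integral of the centred averages

`Iw (fun x => cA f (3|x|/2)) = d (2/3)^(d-1) Iw f`.

Proof. `ofReal (cA f (3|x|/2) / |x|)` is `|B_1|⁻¹` times the lower integral over `z ∈ B(0,1)`
of `ofReal (f ((3|x|/2) z) / |x|)` (`ofReal_integral_eq_lintegral_ofReal`: the integrand is
continuous in `z`, nonnegative). `f ((3|x|/2) z) = f ((3|z|/2) x)`: the two points have the same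
norm and `f` is radial (`RadAnti` in both directions). Tonelli (`lintegral_lintegral_swap`; the
integrand is jointly measurable). For `z ≠ 0` (almost every `z`), `Iw_comp_smul` with
`c = 3|z|/2` gives `∫ ofReal (f ((3|z|/2) x) / |x|) dx = ((3|z|/2)^(d-1))⁻¹ Iw f`; then
`lintegral_ball_inv_norm_pow` gives the total `|B_1|⁻¹ (2/3)^(d-1) d |B_1| Iw f`.
Helper lemmas in this file: names starting with `wa_`.
-/

open MeasureTheory Metric Set
open scoped ENNReal

namespace Vale.Agent.H70.P137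

/-- A radially nonincreasing function takes equal values at points of equal norm. -/
theorem wa_radial {d : ℕ} (f : E d → ℝ) (hf : RadAnti f) (a b : E d) (hab : ‖a‖ = ‖b‖) :
    f a = f b :=
  le_antisymm (hf b a hab.symm.le) (hf a b hab.le)

/-- The pointwise rewriting of the integrand of `Iw (fun x => cA f (3|x|/2))`. -/
theorem wa_pointwise {d : ℕ} (f : E d → ℝ) (hf : RadAnti f) (hf0 : ∀ x, 0 ≤ f x)
    (hfc : Continuous f) (x : E d) :
    ENNReal.ofReal (cA f (3 / 2 * ‖x‖) / ‖x‖)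
      = (volume (ball (0 : E d) 1))⁻¹ *
        ∫⁻ z in ball (0 : E d) 1, ENNReal.ofReal (f ((3 / 2 * ‖z‖) • x) / ‖x‖) := by
  have hV0 : volume (ball (0 : E d) 1) ≠ 0 := (measure_ball_pos volume 0 one_pos).ne'
  have hVt : volume (ball (0 : E d) 1) ≠ ⊤ := measure_ball_lt_top.ne
  have hVpos : 0 < (volume (ball (0 : E d) 1)).toReal := ENNReal.toReal_pos hV0 hVt
  have hcont : Continuous (fun z : E d => f ((3 / 2 * ‖x‖) • z)) := by fun_prop
  have hint : IntegrableOn (fun z : E d => f ((3 / 2 * ‖x‖) • z)) (ball (0 : E d) 1) :=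
    hcont.continuousOn.integrableOn_of_subset_isCompact (isCompact_closedBall (0 : E d) 1)
      measurableSet_ball ball_subset_closedBall hVt
  have hI0 : 0 ≤ ∫ z in ball (0 : E d) 1, f ((3 / 2 * ‖x‖) • z) :=
    integral_nonneg fun z => hf0 _
  have e1 : ENNReal.ofReal (∫ z in ball (0 : E d) 1, f ((3 / 2 * ‖x‖) • z))
      = ∫⁻ z in ball (0 : E d) 1, ENNReal.ofReal (f ((3 / 2 * ‖x‖) • z)) :=
    ofReal_integral_eq_lintegral_ofReal hint (Filter.Eventually.of_forall fun z => hf0 _)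
  have e2 : ∀ z : E d, ENNReal.ofReal (f ((3 / 2 * ‖z‖) • x) / ‖x‖)
      = ENNReal.ofReal (f ((3 / 2 * ‖x‖) • z)) * ENNReal.ofReal (‖x‖⁻¹) := by
    intro z
    have hn : ‖(3 / 2 * ‖z‖) • x‖ = ‖(3 / 2 * ‖x‖) • z‖ := by
      rw [norm_smul, norm_smul, Real.norm_eq_abs, Real.norm_eq_abs,
        abs_of_nonneg (by positivity), abs_of_nonneg (by positivity)]
      ring
    rw [wa_radial f hf _ _ hn, div_eq_mul_inv, ENNReal.ofReal_mul (hf0 _)]
  simp_rw [e2]
  rw [lintegral_mul_const' _ _ ENNReal.ofReal_ne_top, ← e1]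
  unfold cA
  rw [div_eq_mul_inv, ENNReal.ofReal_mul (mul_nonneg (inv_nonneg.mpr hVpos.le) hI0),
    ENNReal.ofReal_mul (inv_nonneg.mpr hVpos.le), ENNReal.ofReal_inv_of_pos hVpos,
    ENNReal.ofReal_toReal hVt, mul_assoc]

/-- ROW R12. -/
theorem Iw_cA {d : ℕ} (hd : 1 ≤ d) (f : E d → ℝ) (hf : RadAnti f) (hf0 : ∀ x, 0 ≤ f x)
    (hfc : Continuous f) :
    Iw (fun x : E d => cA f (3 / 2 * ‖x‖))
      = ENNReal.ofReal ((2 / 3 : ℝ) ^ (d - 1) * d) * Iw f := by
  have hne : Nonempty (Fin d) := ⟨⟨0, by omega⟩⟩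
  have hV0 : volume (ball (0 : E d) 1) ≠ 0 := (measure_ball_pos volume 0 one_pos).ne'
  have hVt : volume (ball (0 : E d) 1) ≠ ⊤ := measure_ball_lt_top.ne
  -- joint measurability
  have hmeas : Measurable (Function.uncurry
      (fun (x z : E d) => ENNReal.ofReal (f ((3 / 2 * ‖z‖) • x) / ‖x‖))) := by
    have h : Continuous (fun p : E d × E d => f ((3 / 2 * ‖p.2‖) • p.1)) := by fun_prop
    have h2 : Measurable (fun p : E d × E d => ‖p.1‖) := by fun_prop
    exact ENNReal.measurable_ofReal.comp (h.measurable.div h2)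
  -- the inner integral in `x`, for `z ≠ 0`
  have hinner : ∀ z : E d, z ≠ 0 →
      ∫⁻ x : E d, ENNReal.ofReal (f ((3 / 2 * ‖z‖) • x) / ‖x‖)
        = ENNReal.ofReal ((2 / 3 : ℝ) ^ (d - 1)) * ENNReal.ofReal ((‖z‖ ^ (d - 1))⁻¹) * Iw f := by
    intro z hz
    have hzpos : 0 < ‖z‖ := norm_pos_iff.mpr hz
    have hc : (0 : ℝ) < 3 / 2 * ‖z‖ := by positivity
    have h := Iw_comp_smul hd f (3 / 2 * ‖z‖) hc
    unfold Iw at h
    rw [h]
    unfold Iw
    congr 1
    rw [← ENNReal.ofReal_mul (by positivity)]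
    congr 1
    rw [mul_pow, mul_inv, ← inv_pow]
    norm_num
  have hae : ∀ᵐ z : E d ∂(volume.restrict (ball (0 : E d) 1)),
      ∫⁻ x : E d, ENNReal.ofReal (f ((3 / 2 * ‖z‖) • x) / ‖x‖)
        = ENNReal.ofReal ((2 / 3 : ℝ) ^ (d - 1)) * ENNReal.ofReal ((‖z‖ ^ (d - 1))⁻¹) * Iw f := by
    apply ae_restrict_of_ae
    have h0 : volume ({0} : Set (E d)) = 0 := by simp
    have : ∀ᵐ z : E d, z ∉ ({0} : Set (E d)) := compl_mem_ae_iff.mpr h0
    filter_upwards [this] with z hz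
    exact hinner z (by simpa using hz)
  have hmz : Measurable (fun z : E d =>
      ENNReal.ofReal ((2 / 3 : ℝ) ^ (d - 1)) * ENNReal.ofReal ((‖z‖ ^ (d - 1))⁻¹)) := by
    fun_prop
  calc Iw (fun x : E d => cA f (3 / 2 * ‖x‖))
      = ∫⁻ x : E d, (volume (ball (0 : E d) 1))⁻¹ *
          ∫⁻ z in ball (0 : E d) 1, ENNReal.ofReal (f ((3 / 2 * ‖z‖) • x) / ‖x‖) := by
        unfold Iw
        exact lintegral_congr fun x => wa_pointwise f hf hf0 hfc x
    _ = (volume (ball (0 : E d) 1))⁻¹ * ∫⁻ x : E d,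
          ∫⁻ z in ball (0 : E d) 1, ENNReal.ofReal (f ((3 / 2 * ‖z‖) • x) / ‖x‖) :=
        lintegral_const_mul' _ _ (ENNReal.inv_ne_top.mpr hV0)
    _ = (volume (ball (0 : E d) 1))⁻¹ * ∫⁻ z in ball (0 : E d) 1,
          ∫⁻ x : E d, ENNReal.ofReal (f ((3 / 2 * ‖z‖) • x) / ‖x‖) := by
        rw [lintegral_lintegral_swap hmeas.aemeasurable]
    _ = (volume (ball (0 : E d) 1))⁻¹ * ∫⁻ z in ball (0 : E d) 1,
          ENNReal.ofReal ((2 / 3 : ℝ) ^ (d - 1)) * ENNReal.ofReal ((‖z‖ ^ (d - 1))⁻¹) * Iw f := by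
        rw [lintegral_congr_ae hae]
    _ = (volume (ball (0 : E d) 1))⁻¹ * ((ENNReal.ofReal ((2 / 3 : ℝ) ^ (d - 1)) *
          ((d : ℝ≥0∞) * volume (ball (0 : E d) 1))) * Iw f) := by
        rw [lintegral_mul_const _ hmz, lintegral_const_mul' _ _ ENNReal.ofReal_ne_top,
          lintegral_ball_inv_norm_pow hd]
    _ = ENNReal.ofReal ((2 / 3 : ℝ) ^ (d - 1) * d) * Iw f := by
        rw [ENNReal.ofReal_mul (by positivity), ENNReal.ofReal_natCast]
        have hc : (volume (ball (0 : E d) 1))⁻¹ * volume (ball (0 : E d) 1) = 1 :=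
          ENNReal.inv_mul_cancel hV0 hVt
        calc (volume (ball (0 : E d) 1))⁻¹ * ((ENNReal.ofReal ((2 / 3 : ℝ) ^ (d - 1)) *
              ((d : ℝ≥0∞) * volume (ball (0 : E d) 1))) * Iw f)
            = ((volume (ball (0 : E d) 1))⁻¹ * volume (ball (0 : E d) 1)) *
              (ENNReal.ofReal ((2 / 3 : ℝ) ^ (d - 1)) * (d : ℝ≥0∞) * Iw f) := by ring
          _ = ENNReal.ofReal ((2 / 3 : ℝ) ^ (d - 1)) * (d : ℝ≥0∞) * Iw f := by
              rw [hc, one_mul]

end Vale.Agent.H70.P137
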