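import Mathlib
import Vale.Agent.H70.P137.Defs
import Vale.Agent.H70.P137.Mono
import Vale.Agent.H70.P137.Dil
import Vale.Agent.H70.P137.Point
import Vale.Agent.H70.P137.WeightA

/-!
# P137, row R6: the weighted bound `∫ Mf/|x| ≤ 2^(d-1) (3d+1) ∫ f/|x|`

From `cM_le_point` (for `x ≠ 0`; at `x = 0` both integrands are `0` because of the division by
`|x| = 0`): `Iw (cM f) ≤ Iw (fun x => f (x/2)) + 3^d Iw (fun x => cA f (3|x|/2))`
(`ENNReal.ofReal_add`, `lintegral_add_left`: the first integrand is measurable, `f` continuous).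
First term: `Iw_comp_smul` with `c = 1/2` gives `2^(d-1) Iw f`.
Second term: `Iw_cA` gives `d (2/3)^(d-1) Iw f`, and `3^d (2/3)^(d-1) d = 3 d 2^(d-1)`.
Helper lemmas in this file: names starting with `weight_`.
-/

open MeasureTheory Metric Set
open scoped ENNReal

namespace Vale.Agent.H70.P137

/-- ROW R6. -/
theorem Iw_cM_le {d : ℕ} (hd : 1 ≤ d) (f : E d → ℝ) (hf : RadAnti f) (hf0 : ∀ x, 0 ≤ f x)
    (hfc : Continuous f) (c : ℝ) (hc : ∀ y, f y ≤ c) :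
    Iw (cM f) ≤ ENNReal.ofReal (2 ^ (d - 1) * (3 * d + 1)) * Iw f := by
  have hpt : ∀ x : E d, ENNReal.ofReal (cM f x / ‖x‖)
      ≤ ENNReal.ofReal (f ((1 / 2 : ℝ) • x) / ‖x‖)
        + ENNReal.ofReal (3 ^ d) * ENNReal.ofReal (cA f (3 / 2 * ‖x‖) / ‖x‖) := by
    intro x
    by_cases hx : x = 0
    · subst hx; simp
    · have hxn : 0 < ‖x‖ := norm_pos_iff.mpr hx
      have h1 := cM_le_point hd f hf hf0 hfc c hc x hx
      have h2 : cM f x / ‖x‖
          ≤ f ((1 / 2 : ℝ) • x) / ‖x‖ + 3 ^ d * (cA f (3 / 2 * ‖x‖) / ‖x‖) := by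
        rw [← mul_div_assoc, ← add_div]
        exact div_le_div_of_nonneg_right h1 hxn.le
      calc ENNReal.ofReal (cM f x / ‖x‖)
          ≤ ENNReal.ofReal (f ((1 / 2 : ℝ) • x) / ‖x‖
              + 3 ^ d * (cA f (3 / 2 * ‖x‖) / ‖x‖)) := ENNReal.ofReal_le_ofReal h2
        _ ≤ ENNReal.ofReal (f ((1 / 2 : ℝ) • x) / ‖x‖)
              + ENNReal.ofReal (3 ^ d * (cA f (3 / 2 * ‖x‖) / ‖x‖)) := ENNReal.ofReal_add_le
        _ = _ := by rw [ENNReal.ofReal_mul (by positivity)]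
  have hmeas : Measurable (fun x : E d => ENNReal.ofReal (f ((1 / 2 : ℝ) • x) / ‖x‖)) := by
    apply ENNReal.measurable_ofReal.comp
    exact ((hfc.comp (continuous_const_smul _)).measurable).div measurable_norm
  calc Iw (cM f) = ∫⁻ x : E d, ENNReal.ofReal (cM f x / ‖x‖) := rfl
    _ ≤ ∫⁻ x : E d, (ENNReal.ofReal (f ((1 / 2 : ℝ) • x) / ‖x‖)
        + ENNReal.ofReal (3 ^ d) * ENNReal.ofReal (cA f (3 / 2 * ‖x‖) / ‖x‖)) :=
        lintegral_mono hpt
    _ = (∫⁻ x : E d, ENNReal.ofReal (f ((1 / 2 : ℝ) • x) / ‖x‖))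
        + ∫⁻ x : E d, ENNReal.ofReal (3 ^ d) * ENNReal.ofReal (cA f (3 / 2 * ‖x‖) / ‖x‖) :=
        lintegral_add_left hmeas _
    _ = Iw (fun x => f ((1 / 2 : ℝ) • x))
        + ENNReal.ofReal (3 ^ d) * Iw (fun x : E d => cA f (3 / 2 * ‖x‖)) := by
        rw [lintegral_const_mul' _ _ ENNReal.ofReal_ne_top]; rfl
    _ = ENNReal.ofReal (((1 / 2 : ℝ) ^ (d - 1))⁻¹) * Iw f
        + ENNReal.ofReal (3 ^ d) * (ENNReal.ofReal ((2 / 3 : ℝ) ^ (d - 1) * d) * Iw f) := by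
        rw [Iw_comp_smul hd f (1 / 2) (by norm_num), Iw_cA hd f hf hf0 hfc]
    _ = ENNReal.ofReal (2 ^ (d - 1) * (3 * d + 1)) * Iw f := by
        rw [← mul_assoc, ← add_mul, ← ENNReal.ofReal_mul (by positivity),
          ← ENNReal.ofReal_add (by positivity) (by positivity)]
        congr 2
        obtain ⟨k, rfl⟩ : ∃ k, d = k + 1 := ⟨d - 1, by omega⟩
        simp only [Nat.add_sub_cancel]
        have h3 : (3 : ℝ) ^ (k + 1) * ((2 / 3 : ℝ) ^ k) = 3 * 2 ^ k := by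
          rw [pow_succ, div_pow]; field_simp
        have h2 : (((1 / 2 : ℝ)) ^ k)⁻¹ = 2 ^ k := by
          rw [one_div, inv_pow, inv_inv]
        push_cast
        rw [h2]; linear_combination ((k : ℝ) + 1) * h3

end Vale.Agent.H70.P137
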