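import Mathlib
import Vale.Agent.H70.P137.Setting
import Vale.Agent.H70.P137.Defs
import Vale.Agent.H70.P137.Mono
import Vale.Agent.H70.P137.Lip
import Vale.Agent.H70.P137.Weight
import Vale.Agent.H70.P137.Fatou
import Vale.Agent.H70.P137.HardyFin
import Vale.Agent.H70.P137.Hardy

/-!
# P137: the gradient bound for the centered maximal function of radially nonincreasing functions

Chain: `∫ |∇ Mf| ≤ (d-1) ∫ Mf/|x| ≤ (d-1) 2^(d-1) (3d+1) ∫ f/|x| ≤ (d-1) 2^d (3d+1) ∫ |∇ f|`.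
-/

open MeasureTheory Metric Set
open scoped ENNReal NNReal

namespace Vale.Agent.H70.P137

theorem final_statement (d : ℕ) (hd : 2 ≤ d) (f : E d → ℝ) (g : ℝ → ℝ)
    (hfg : ∀ x, f x = g ‖x‖) (hg : AntitoneOn g (Set.Ici 0)) (hg0 : ∀ r, 0 ≤ r → 0 ≤ g r)
    (hf1 : ContDiff ℝ 1 f) (K : ℝ≥0) (hK : LipschitzWith K f) (hfi : Integrable f) :
    (∀ x, BddAbove (Set.range fun r : {r : ℝ // 0 < r} => ballAvg f x r)) ∧
      LipschitzWith K (cM f) ∧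
      ∫⁻ x : E d, ‖fderiv ℝ (cM f) x‖ₑ
        ≤ ENNReal.ofReal (((d : ℝ) - 1) * 2 ^ d * (3 * d + 1)) * ∫⁻ x : E d, ‖fderiv ℝ f x‖ₑ := by
  have hd1 : 1 ≤ d := by omega
  have hfc : Continuous f := hf1.continuous
  have hf0 : ∀ x, 0 ≤ f x := fun x => by rw [hfg]; exact hg0 _ (norm_nonneg x)
  have hc : ∀ y, f y ≤ g 0 := fun y => by
    rw [hfg]
    exact hg (Set.mem_Ici.mpr le_rfl) (Set.mem_Ici.mpr (norm_nonneg y)) (norm_nonneg y)
  have hcabs : ∀ y, |f y| ≤ g 0 := fun y => by rw [abs_of_nonneg (hf0 y)]; exact hc y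
  have hrad : RadAnti f := fun x y hxy => by
    rw [hfg x, hfg y]
    exact hg (Set.mem_Ici.mpr (norm_nonneg x)) (Set.mem_Ici.mpr (norm_nonneg y)) hxy
  have hlip : LipschitzWith K (cM f) := cM_lipschitz f K hK (g 0) (hg0 0 le_rfl) hcabs
  refine ⟨fun x => bddAbove_ballAvg f (g 0) (hg0 0 le_rfl) hcabs x, hlip, ?_⟩
  have hMrad : RadAnti (cM f) := cM_radAnti f hrad hf0 hfc (g 0) hc
  have h1 := lintegral_enorm_fderiv_le hd (cM f) hMrad (cM_nonneg f) hlip.continuous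
  have h2 := Iw_cM_le hd1 f hrad hf0 hfc (g 0) hc
  have h3 := Iw_le_two_mul hd f hrad hf0 hf1 (Iw_lt_top hd f hf0 (g 0) hc hfc hfi)
  have hdr : (1 : ℝ) ≤ (d : ℝ) := by exact_mod_cast hd1
  have e : ENNReal.ofReal (((d : ℝ) - 1) * 2 ^ d * (3 * d + 1))
      = ENNReal.ofReal ((d : ℝ) - 1) * (ENNReal.ofReal (2 ^ (d - 1) * (3 * d + 1)) * 2) := by
    have h2 : (2 : ℝ≥0∞) = ENNReal.ofReal 2 := by simp
    rw [h2, ← ENNReal.ofReal_mul (by positivity), ← ENNReal.ofReal_mul (by linarith)]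
    congr 1
    have : (2 : ℝ) ^ d = 2 ^ (d - 1) * 2 := by
      rw [← pow_succ]
      congr 1
      omega
    rw [this]
    ring
  calc ∫⁻ x : E d, ‖fderiv ℝ (cM f) x‖ₑ
      ≤ ENNReal.ofReal ((d : ℝ) - 1) * Iw (cM f) := h1
    _ ≤ ENNReal.ofReal ((d : ℝ) - 1) * (ENNReal.ofReal (2 ^ (d - 1) * (3 * d + 1)) * Iw f) :=
        mul_le_mul_right h2 _
    _ ≤ ENNReal.ofReal ((d : ℝ) - 1) * (ENNReal.ofReal (2 ^ (d - 1) * (3 * d + 1))
          * (2 * ∫⁻ x : E d, ‖fderiv ℝ f x‖ₑ)) :=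
        mul_le_mul_right (mul_le_mul_right h3 _) _
    _ = ENNReal.ofReal (((d : ℝ) - 1) * 2 ^ d * (3 * d + 1)) * ∫⁻ x : E d, ‖fderiv ℝ f x‖ₑ := by
        rw [e]
        ring

end Vale.Agent.H70.P137
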